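import Vale.Agent.P333.Progress

/-! Counting occurrences along layers; closed and open occurrences. -/

namespace Vale.Agent.P333

open Finset Classical

theorem sum_shift_one {w : ℤ} (hw : 0 ≤ w) (f : ℤ → ℕ) (hf : f w = f 0) :
    ∑ t ∈ Ico 0 w, f (t + 1) = ∑ t ∈ Ico 0 w, f t := by
  rw [Finset.sum_Ico_add' f 0 w 1]
  have h1 : ∑ t ∈ Ico 0 (w + 1), f t = f w + ∑ t ∈ Ico 0 w, f t := by
    rw [← Finset.insert_Ico_right_eq_Ico_add_one hw, Finset.sum_insert (by simp)]
  have h2 : ∑ t ∈ Ico 0 (w + 1), f t = f 0 + ∑ t ∈ Ico (0 + 1) (w + 1), f t := by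
    rw [← Finset.insert_Ico_add_one_left_eq_Ico (show (0 : ℤ) < w + 1 by omega),
      Finset.sum_insert (by simp)]
  omega

theorem sum_shift {w : ℤ} (hw : 0 ≤ w) (f : ℤ → ℕ) (hf : ∀ t, f (t + w) = f t) (d : ℤ) :
    ∑ t ∈ Ico 0 w, f (t + d) = ∑ t ∈ Ico 0 w, f t := by
  induction d using Int.induction_on with
  | zero => simp
  | succ k ih =>
    rw [← ih, ← sum_shift_one hw (fun t => f (t + k)) (by rw [add_comm, hf, zero_add])]
    exact Finset.sum_congr rfl (fun t _ => by congr 1; ring)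
  | pred k ih =>
    rw [← ih, ← sum_shift_one hw (fun t => f (t + (-k - 1))) (by rw [add_comm, hf, zero_add])]
    exact Finset.sum_congr rfl (fun t _ => by congr 1; ring)

theorem Layer.sh_per (Y : Layer) (t : ℤ) : Y.sh (t + Y.w) = Y.sh t :=
  Layer.ext' rfl (by funext s; simp only [Layer.sh]; rw [← add_assoc, Y.per])
    (by funext s; simp only [Layer.sh]; rw [← add_assoc, Y.rper]; ring)

/-- Sum over all shifts of a layer. -/
noncomputable def psum (Y : Layer) (f : Layer → ℕ) : ℕ := ∑ t ∈ Ico 0 Y.w, f (Y.sh t)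

theorem psum_sh (Y : Layer) (f : Layer → ℕ) (d : ℤ) : psum Y (fun X => f (X.sh d)) = psum Y f := by
  unfold psum
  rw [← sum_shift Y.w_pos.le (fun t => f (Y.sh t)) (fun t => by rw [Y.sh_per]) d]
  exact Finset.sum_congr rfl (fun t _ => by beta_reduce; rw [Y.sh_sh, add_comm])

theorem psum_sh' (Y : Layer) (f : Layer → ℕ) (d : ℤ) : psum (Y.sh d) f = psum Y f := by
  rw [← psum_sh Y f d]
  exact Finset.sum_congr rfl (fun t _ => by beta_reduce; rw [Y.sh_sh, Y.sh_sh, add_comm])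

theorem le_psum {Y X : Layer} (f : Layer → ℕ) (h : Mem Y X) : f X ≤ psum Y f := by
  obtain ⟨d, rfl⟩ := h
  rw [← psum_sh' Y f d]
  have := Finset.single_le_sum (f := fun t => f ((Y.sh d).sh t)) (fun _ _ => Nat.zero_le _)
    (show (0 : ℤ) ∈ Ico 0 (Y.sh d).w from mem_Ico.2 ⟨le_rfl, Y.w_pos⟩)
  rwa [Layer.sh_zero] at this

theorem psum_le {Y : Layer} {f g : Layer → ℕ} (h : ∀ X, Mem Y X → f X ≤ g X) :
    psum Y f ≤ psum Y g := Finset.sum_le_sum (fun t _ => h _ ⟨t, rfl⟩)

theorem psum_congr {Y : Layer} {f g : Layer → ℕ} (h : ∀ X, Mem Y X → f X = g X) :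
    psum Y f = psum Y g := Finset.sum_congr rfl (fun t _ => h _ ⟨t, rfl⟩)

theorem psum_add (Y : Layer) (f g : Layer → ℕ) :
    psum Y (fun X => f X + g X) = psum Y f + psum Y g := Finset.sum_add_distrib

theorem psum_sum {ι : Type} (Y : Layer) (s : Finset ι) (f : ι → Layer → ℕ) :
    psum Y (fun X => ∑ i ∈ s, f i X) = ∑ i ∈ s, psum Y (f i) := Finset.sum_comm

theorem exists_of_psum_pos {Y : Layer} {f : Layer → ℕ} (h : 0 < psum Y f) :
    ∃ X, Mem Y X ∧ 0 < f X := by
  by_contra h1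
  push Not at h1
  have := psum_le (Y := Y) (f := f) (g := fun _ => 0) h1
  have h2 : psum Y (fun _ => 0) = 0 := by simp [psum]
  omega

theorem psum_one (Y : Layer) : (psum Y (fun _ => 1) : ℤ) = Y.w := by
  have := Y.w_pos
  simp [psum]; omega

/-- Covered occurrences. -/
noncomputable def mu (Y : Layer) (v : List ℕ) : ℕ :=
  psum Y (fun X => if word X.P 0 v.length = v ∧ (v.length : ℤ) ≤ X.r 0 then 1 else 0)

/-- Descending arcs leaving `v`. -/
noncomputable def dn (Y : Layer) (v : List ℕ) : ℕ :=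
  psum Y (fun X => if word X.P 0 (X.r 0) = v then 1 else 0)

/-- Ascending arcs entering `v`. -/
noncomputable def upc (Y : Layer) (v : List ℕ) : ℕ :=
  psum Y (fun X => if word X.P 0 v.length = v ∧ X.r (-1) < v.length ∧ (v.length : ℤ) ≤ X.r 0
    then 1 else 0)

theorem mu_pos {Y X : Layer} (h : Mem Y X) {a b : ℤ} (hab : a ≤ b) (hb : b ≤ X.r a) :
    0 < mu Y (word X.P a b) := by
  refine lt_of_lt_of_le ?_ (le_psum _ (h.sh a))
  rw [if_pos]; · exact Nat.one_pos
  refine ⟨?_, ?_⟩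
  · rw [X.word_sh]; congr 1 <;> simp; omega
  · simp [Layer.sh]; omega

theorem dn_pos {Y X : Layer} (h : Mem Y X) (a : ℤ) : 0 < dn Y (word X.P a (X.r a)) := by
  refine lt_of_lt_of_le ?_ (le_psum _ (h.sh a))
  rw [if_pos]; · exact Nat.one_pos
  rw [X.word_sh]; congr 1 <;> simp [Layer.sh]

theorem upc_pos {Y X : Layer} (h : Mem Y X) {a b : ℤ} (h1 : X.r (a - 1) < b) (hb : b ≤ X.r a) :
    0 < upc Y (word X.P a b) := by
  have := X.lt (a - 1)
  refine lt_of_lt_of_le ?_ (le_psum _ (h.sh a))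
  rw [if_pos]; · exact Nat.one_pos
  refine ⟨?_, ?_, ?_⟩
  · rw [X.word_sh]; congr 1 <;> simp; omega
  · simp only [Layer.sh, length_word]; rw [show -1 + a = a - 1 by ring]; omega
  · simp [Layer.sh]; omega

theorem exists_of_mu_pos {Y : Layer} {v : List ℕ} (h : 0 < mu Y v) :
    ∃ X, Mem Y X ∧ word X.P 0 v.length = v ∧ (v.length : ℤ) ≤ X.r 0 := by
  obtain ⟨X, hX, h1⟩ := exists_of_psum_pos h
  exact ⟨X, hX, by by_contra h2; simp [h2] at h1⟩

theorem exists_of_dn_pos {Y : Layer} {v : List ℕ} (h : 0 < dn Y v) :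
    ∃ X, Mem Y X ∧ word X.P 0 (X.r 0) = v := by
  obtain ⟨X, hX, h1⟩ := exists_of_psum_pos h
  exact ⟨X, hX, by by_contra h2; simp [h2] at h1⟩

/-- `Z` contains all nonempty covered words of the layer. -/
def Supp (Z : Finset (List ℕ)) (Y : Layer) : Prop :=
  ∀ X, Mem Y X → ∀ a b, a < b → b ≤ X.r a → word X.P a b ∈ Z

theorem sum_ind {ι : Type} (s : Finset ι) (p : ι → Prop) [DecidablePred p] (q : Prop)
    [Decidable q] (h1 : q → ∃ x ∈ s, p x)
    (h2 : ∀ x ∈ s, p x → q) (hu : ∀ x ∈ s, ∀ y ∈ s, p x → p y → x = y) :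
    ∑ x ∈ s, (if p x then 1 else 0) = if q then 1 else 0 := by
  by_cases hq : q
  · obtain ⟨x, hx, hp⟩ := h1 hq
    rw [Finset.sum_eq_single_of_mem x hx (fun y hy hne => if_neg (fun h => hne (hu y hy x hx h hp))),
      if_pos hp, if_pos hq]
  · rw [if_neg hq]
    exact Finset.sum_eq_zero (fun x hx => if_neg (fun h => hq (h2 x hx h)))

theorem mu_right {Z : Finset (List ℕ)} {Y : Layer} (hZ : Supp Z Y) {v : List ℕ} (hv : v ≠ []) :
    mu Y v = ∑ z ∈ Z.filter (fun z => z.dropLast = v), mu Y z + dn Y v := by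
  unfold mu dn
  rw [← psum_sum, ← psum_add]
  refine psum_congr (fun X hX => ?_)
  have hl : ∀ z ∈ Z.filter (fun z => z.dropLast = v), (z.length : ℤ) = v.length + 1 := by
    intro z hz
    have h1 := congrArg List.length (mem_filter.1 hz).2
    have h2 := List.length_pos_iff.2 hv
    rw [List.length_dropLast] at h1; omega
  have hd : (word X.P 0 (v.length + 1)).dropLast = word X.P 0 v.length := by
    rw [dropLast_word, add_sub_cancel_right]
  have hr := X.lt 0
  have hdn : word X.P 0 (X.r 0) = v ↔ word X.P 0 v.length = v ∧ X.r 0 = v.length := by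
    constructor
    · intro h
      have : X.r 0 = v.length := by rw [← h]; simp; omega
      exact ⟨this ▸ h, this⟩
    · rintro ⟨h1, h2⟩; rwa [h2]
  rw [sum_ind _ _ (word X.P 0 v.length = v ∧ (v.length : ℤ) + 1 ≤ X.r 0)]
  · simp only [hdn]
    by_cases h1 : word X.P 0 v.length = v
    · simp only [h1, true_and]; split_ifs <;> omega
    · simp [h1]
  · rintro ⟨h1, h2⟩
    have h3 : word X.P 0 (v.length + 1) ∈ Z.filter (fun z => z.dropLast = v) :=
      mem_filter.2 ⟨hZ X hX _ _ (by omega) h2, hd.trans h1⟩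
    exact ⟨_, h3, by rw [hl _ h3]; exact ⟨rfl, h2⟩⟩
  · rintro z hz ⟨h1, h2⟩
    rw [hl z hz] at h1 h2
    exact ⟨by rw [← hd, h1]; exact (mem_filter.1 hz).2, h2⟩
  · rintro z hz y hy ⟨h1, -⟩ ⟨h2, -⟩
    rw [← h1, ← h2, hl z hz, hl y hy]

theorem mu_left {Z : Finset (List ℕ)} {Y : Layer} (hZ : Supp Z Y) {v : List ℕ} (hv : v ≠ []) :
    mu Y v = ∑ z ∈ Z.filter (fun z => z.tail = v), mu Y z + upc Y v := by
  have e : ∀ z, mu Y z = psum Y (fun X => if word X.P (-1) (z.length - 1) = z ∧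
      (z.length : ℤ) - 1 ≤ X.r (-1) then 1 else 0) := by
    intro z
    unfold mu
    rw [← psum_sh Y _ (-1)]
    refine psum_congr (fun X _ => ?_)
    rw [X.word_sh]
    simp only [Layer.sh, ← sub_eq_add_neg, zero_sub]
    exact if_congr (and_congr Iff.rfl (by omega)) rfl rfl
  rw [Finset.sum_congr rfl (fun z _ => e z)]
  unfold mu upc
  rw [← psum_sum, ← psum_add]
  refine psum_congr (fun X hX => ?_)
  have hl : ∀ z ∈ Z.filter (fun z => z.tail = v), (z.length : ℤ) - 1 = v.length := by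
    intro z hz
    have h1 := congrArg List.length (mem_filter.1 hz).2
    have h2 := List.length_pos_iff.2 hv
    rw [List.length_tail] at h1; omega
  have hd : (word X.P (-1) v.length).tail = word X.P 0 v.length := by
    rw [tail_word, neg_add_cancel]
  have hm := X.mono (show -1 ≤ 0 by omega)
  rw [sum_ind _ _ (word X.P 0 v.length = v ∧ (v.length : ℤ) ≤ X.r (-1))]
  · by_cases h1 : word X.P 0 v.length = v
    · simp only [h1, true_and]; split_ifs <;> omega
    · simp [h1]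
  · rintro ⟨h1, h2⟩
    have h3 : word X.P (-1) v.length ∈ Z.filter (fun z => z.tail = v) :=
      mem_filter.2 ⟨hZ X hX _ _ (by omega) h2, hd.trans h1⟩
    exact ⟨_, h3, by rw [hl _ h3]; exact ⟨rfl, h2⟩⟩
  · rintro z hz ⟨h1, h2⟩
    rw [hl z hz] at h1 h2
    exact ⟨by rw [← hd, h1]; exact (mem_filter.1 hz).2, h2⟩
  · rintro z hz y hy ⟨h1, -⟩ ⟨h2, -⟩
    rw [← h1, ← h2, hl z hz, hl y hy]

/-- `z` extends the window `[0, n)` of `P`, placed at offset `p`, up to a mismatch on each side. -/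
def CO (P : ℤ → ℕ) (n : ℕ) (z : List ℕ) (p : ℕ) : Prop :=
  1 ≤ p ∧ p + n + 1 ≤ z.length ∧
    ∀ k < z.length, (z.getD k 0 = P ((k : ℤ) - p) ↔ (k ≠ 0 ∧ k + 1 ≠ z.length))

/-- Number of closed placements in `z`. -/
noncomputable def ncl (P : ℤ → ℕ) (n : ℕ) (z : List ℕ) : ℕ :=
  ((range z.length).filter (CO P n z)).card

/-- Weighted number of closed occurrences. -/
noncomputable def Cl (Z : Finset (List ℕ)) (f : List ℕ → ℕ) (P : ℤ → ℕ) (n : ℕ) : ℕ :=
  ∑ z ∈ Z, f z * ncl P n z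

/-- An open occurrence. -/
def Open (X : Layer) (P : ℤ → ℕ) (n : ℤ) : Prop :=
  n ≤ X.r 0 ∧ ∃ a b, a ≤ 0 ∧ n ≤ b ∧ Agree X.P P a b ∧ X.r (a - 1) ≤ b

/-- A closed occurrence. -/
def Closed (X : Layer) (P : ℤ → ℕ) (n a b : ℤ) : Prop :=
  a ≤ 0 ∧ n ≤ b ∧ Agree X.P P a b ∧ X.P (a - 1) ≠ P (a - 1) ∧ X.P b ≠ P b ∧ b + 1 ≤ X.r (a - 1)

/-- Number of open occurrences. -/
noncomputable def opn (Y : Layer) (P : ℤ → ℕ) (n : ℤ) : ℕ :=
  psum Y (fun X => if Open X P n then 1 else 0)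

theorem Closed.unique {X : Layer} {P : ℤ → ℕ} {n a b a' b' : ℤ} (hn : 0 ≤ n)
    (h : Closed X P n a b) (ha : a' ≤ 0) (hb : n ≤ b') (h' : Agree X.P P a' b') :
    a ≤ a' ∧ b' ≤ b := by
  obtain ⟨h1, h2, -, h4, h5, -⟩ := h
  constructor
  · by_contra h6; exact h4 (h' _ (by omega) (by omega))
  · by_contra h6; exact h5 (h' _ (by omega) (by omega))

theorem occ_iff (X : Layer) (P : ℤ → ℕ) {n : ℤ} (hn : 0 ≤ n) :
    (Agree X.P P 0 n ∧ n ≤ X.r 0) ↔ (Open X P n ∨ ∃ a b, Closed X P n a b) := by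
  constructor
  · rintro ⟨h1, h2⟩
    by_cases ho : Open X P n
    · exact Or.inl ho
    · right
      have hno : ∀ a b, a ≤ 0 → n ≤ b → Agree X.P P a b → b < X.r (a - 1) := by
        intro a b ha hb hag
        by_contra h
        exact ho ⟨h2, a, b, ha, hb, hag, by omega⟩
      obtain ⟨b, ⟨b1, b2⟩, hb⟩ := Int.exists_greatest_of_bdd
        (P := fun b => n ≤ b ∧ Agree X.P P 0 b)
        ⟨X.r (0 - 1), fun b h => (hno 0 b le_rfl h.1 h.2).le⟩ ⟨n, le_rfl, h1⟩
      obtain ⟨a, ⟨a1, a2⟩, ha⟩ := Int.exists_least_of_bdd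
        (P := fun a => a ≤ 0 ∧ Agree X.P P a b) ⟨-(X.r 0 * X.w), fun a h => by
          by_contra h3
          have e1 := hno a b h.1 b1 h.2
          have e2 := X.mono (show a - 1 ≤ 0 + (-X.r 0) * X.w by linarith)
          rw [X.rper_mul] at e2
          have e3 := X.lt 0
          have e4 := X.w_pos
          nlinarith⟩ ⟨0, le_rfl, b2⟩
      refine ⟨a, b, a1, b1, a2, fun h => ?_, fun h => ?_, hno a b a1 b1 a2⟩
      · have := ha (a - 1) ⟨by omega, fun t t1 t2 => by
          by_cases t3 : t = a - 1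
          · rwa [t3]
          · exact a2 t (by omega) t2⟩
        omega
      · have := hb (b + 1) ⟨by omega, fun t t1 t2 => by
          by_cases t3 : t = b
          · rwa [t3]
          · exact b2 t t1 (by omega)⟩
        omega
  · rintro (⟨h1, a, b, h2, h3, h4, -⟩ | ⟨a, b, h1, h2, h3, -, -, h4⟩)
    · exact ⟨h4.mono h2 h3, h1⟩
    · have := X.mono (show a - 1 ≤ 0 by omega)
      exact ⟨h3.mono h1 h2, by omega⟩

theorem not_open_of_closed {X : Layer} {P : ℤ → ℕ} {n a b : ℤ} (hn : 0 ≤ n)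
    (h : Closed X P n a b) : ¬ Open X P n := by
  rintro ⟨-, a', b', h1, h2, h3, h4⟩
  obtain ⟨h5, h6⟩ := h.unique hn h1 h2 h3
  have := X.mono (show a - 1 ≤ a' - 1 by omega)
  have := h.2.2.2.2.2
  omega

theorem co_iff (X : Layer) (P : ℤ → ℕ) (n : ℕ) (z : List ℕ) (p : ℕ)
    (hz : word X.P (-p) (z.length - p) = z) (hr : (z.length : ℤ) - p ≤ X.r (-p)) :
    CO P n z p ↔ Closed X P n (1 - p) (z.length - p - 1) := by
  have hg : ∀ k < z.length, z.getD k 0 = X.P ((k : ℤ) - p) := by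
    intro k hk
    rw [← hz, getD_word _ _ _ _ (by omega)]; congr 1; ring
  constructor
  · rintro ⟨h1, h2, h3⟩
    refine ⟨by omega, by omega, fun t t1 t2 => ?_, ?_, ?_, ?_⟩
    · have := (h3 (t + p).toNat (by omega)).2 (by omega)
      rw [hg _ (by omega), show (((t + p).toNat : ℕ) : ℤ) - p = t by omega] at this
      exact this
    · have := (h3 0 (by omega)).not.2 (by omega)
      rw [hg _ (by omega)] at this
      simpa using this
    · have := (h3 (z.length - 1) (by omega)).not.2 (by omega)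
      rw [hg _ (by omega), show ((z.length - 1 : ℕ) : ℤ) - p = z.length - p - 1 by omega] at this
      exact this
    · rw [show (1 : ℤ) - p - 1 = -p by ring]; omega
  · rintro ⟨h1, h2, h3, h4, h5, -⟩
    refine ⟨by omega, by omega, fun k hk => ?_⟩
    rw [hg k hk]
    constructor
    · intro h
      constructor
      · rintro rfl
        exact h4 (by simpa using h)
      · intro h6
        exact h5 (by rwa [show (z.length : ℤ) - p - 1 = k - p by omega])
    · intro h
      exact h3 _ (by omega) (by omega)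

theorem mu_open {Z : Finset (List ℕ)} {Y : Layer} (hZ : Supp Z Y) (P : ℤ → ℕ) (n : ℕ) :
    mu Y (word P 0 n) = opn Y P n + Cl Z (mu Y) P n := by
  have e : ∀ (z : List ℕ) (p : ℕ), (if CO P n z p then 1 else 0) * mu Y z =
      psum Y (fun X => if CO P n z p ∧ word X.P (-p) (z.length - p) = z ∧
        (z.length : ℤ) - p ≤ X.r (-p) then 1 else 0) := by
    intro z p
    by_cases h : CO P n z p
    · unfold mu
      rw [if_pos h, one_mul, ← psum_sh Y _ (-p)]
      refine psum_congr (fun X _ => ?_)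
      rw [X.word_sh]
      simp only [Layer.sh, ← sub_eq_add_neg, zero_sub, h, true_and]
      exact if_congr (and_congr Iff.rfl (by omega)) rfl rfl
    · simp [h, psum]
  have e2 : Cl Z (mu Y) P n = psum Y (fun X => ∑ x ∈ Z.sigma (fun z => range z.length),
      if CO P n x.1 x.2 ∧ word X.P (-x.2) (x.1.length - x.2) = x.1 ∧
        (x.1.length : ℤ) - x.2 ≤ X.r (-x.2) then 1 else 0) := by
    rw [psum_sum, Finset.sum_sigma]
    refine Finset.sum_congr rfl (fun z _ => ?_)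
    rw [ncl, Finset.card_filter, mul_comm, Finset.sum_mul]
    exact Finset.sum_congr rfl (fun p _ => e z p)
  rw [e2]
  unfold mu opn
  rw [← psum_add]
  refine psum_congr (fun X hX => ?_)
  have hn : (0 : ℤ) ≤ n := by omega
  rw [sum_ind _ _ (∃ a b, Closed X P n a b)]
  · have h1 : (word X.P 0 ((word P 0 n).length) = word P 0 n ∧ ((word P 0 n).length : ℤ) ≤ X.r 0) ↔
        (Open X P n ∨ ∃ a b, Closed X P n a b) := by
      rw [← occ_iff X P hn]
      simp only [length_word, sub_zero, Int.toNat_natCast]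
      exact and_congr ⟨agree_of_word, Agree.word⟩ Iff.rfl
    simp only [h1]
    by_cases h2 : ∃ a b, Closed X P n a b
    · obtain ⟨a, b, h3⟩ := id h2
      simp [h2, not_open_of_closed hn h3]
    · simp [h2]
  · rintro ⟨a, b, h⟩
    obtain ⟨h1, h2, -, -, -, h6⟩ := id h
    have e3 : -(((1 - a).toNat : ℕ) : ℤ) = a - 1 := by omega
    have e4 : ((word X.P (a - 1) (b + 1)).length : ℤ) - ((1 - a).toNat : ℕ) = b + 1 := by
      simp; omega
    refine ⟨⟨word X.P (a - 1) (b + 1), (1 - a).toNat⟩, mem_sigma.2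
      ⟨hZ X hX _ _ (by omega) h6, by simp; omega⟩, ?_⟩
    simp only
    refine ⟨(co_iff X P n _ _ (by rw [e3, e4]) (by rw [e3, e4]; exact h6)).2 ?_,
      by rw [e3, e4], by rw [e3, e4]; exact h6⟩
    rw [e4, show 1 - (((1 - a).toNat : ℕ) : ℤ) = a by omega, add_sub_cancel_right]
    exact h
  · rintro ⟨z, p⟩ - ⟨h1, h2, h3⟩
    exact ⟨_, _, (co_iff X P n z p h2 h3).1 h1⟩
  · rintro ⟨z, p⟩ - ⟨y, q⟩ - ⟨h1, h2, h3⟩ ⟨g1, g2, g3⟩
    simp only at h1 h2 h3 g1 g2 g3
    have c1 := (co_iff X P n z p h2 h3).1 h1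
    have c2 := (co_iff X P n y q g2 g3).1 g1
    have u1 := c1.unique hn c2.1 c2.2.1 c2.2.2.1
    have u2 := c2.unique hn c1.1 c1.2.1 c1.2.2.1
    have hp : p = q := by omega
    subst hp
    have hl : z.length = y.length := by omega
    rw [hl, g2] at h2
    rw [h2]

end Vale.Agent.P333
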