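import Vale.Agent.P333.Count

/-! Normalizing a decomposition into layers. -/

namespace Vale.Agent.P333

open Finset Classical

theorem exists_layer {w : ℤ} (hw : 0 < w) {P : ℤ → ℕ} (hP : ∀ t, P (t + w) = P t) (f : ℤ → ℤ)
    (h1 : ∀ t, 0 ≤ t → t < w → t < f t) (h2 : ∀ t, 0 ≤ t → t + 1 < w → f t ≤ f (t + 1))
    (h3 : f (w - 1) ≤ f 0 + w) :
    ∃ Y : Layer, Y.w = w ∧ Y.P = P ∧ ∀ t, 0 ≤ t → t < w → Y.r t = f t := by
  have e : ∀ t, t % w + w * (t / w) = t ∧ 0 ≤ t % w ∧ t % w < w := fun t =>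
    ⟨Int.emod_add_mul_ediv t w, Int.emod_nonneg _ hw.ne', Int.emod_lt_of_pos _ hw⟩
  refine ⟨⟨w, P, fun t => f (t % w) + w * (t / w), hw, hP, fun t => ?_, fun t => ?_, fun t => ?_⟩,
    rfl, rfl, fun t t1 t2 => ?_⟩
  · obtain ⟨a1, a2⟩ := (Int.ediv_emod_unique (a := t + w) (r := t % w) (q := t / w + 1) hw).2
      ⟨by linarith [(e t).1], (e t).2⟩
    rw [a1, a2]; ring
  · obtain ⟨e1, e2, e3⟩ := e t
    by_cases h : t % w + 1 < w
    · obtain ⟨a1, a2⟩ := (Int.ediv_emod_unique (a := t + 1) (r := t % w + 1) (q := t / w) hw).2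
        ⟨by linarith, by omega, h⟩
      rw [a1, a2]
      have := h2 _ e2 h
      omega
    · obtain ⟨a1, a2⟩ := (Int.ediv_emod_unique (a := t + 1) (r := 0) (q := t / w + 1) hw).2
        ⟨by linarith, le_rfl, hw⟩
      rw [a1, a2, show t % w = w - 1 by omega]
      linarith
  · obtain ⟨e1, e2, e3⟩ := e t
    have := h1 _ e2 e3
    omega
  · simp only
    rw [Int.emod_eq_of_lt t1 t2, Int.ediv_eq_zero_of_lt t1 t2]; ring

theorem dn_eq (Y : Layer) (v : List ℕ) :
    dn Y v = ∑ t ∈ Ico 0 Y.w, if word Y.P t (Y.r t) = v then 1 else 0 := by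
  unfold dn psum
  refine Finset.sum_congr rfl (fun t _ => if_congr ?_ rfl rfl)
  simp only [Layer.word_sh]; simp [Layer.sh]

theorem dn_sh (Y : Layer) (d : ℤ) (v : List ℕ) : dn (Y.sh d) v = dn Y v := psum_sh' _ _ _

theorem area_eq (Y : Layer) : Y.area = psum Y (fun X => (X.r 0).toNat) := by
  unfold Layer.area psum
  push_cast
  refine Finset.sum_congr rfl (fun t _ => ?_)
  have := Y.lt t
  simp only [Layer.sh, zero_add]; omega

theorem area_sh (Y : Layer) (d : ℤ) : (Y.sh d).area = Y.area := by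
  rw [area_eq, area_eq, psum_sh']

/-- The period of the layer is the least period of its word. -/
def Prim (Y : Layer) : Prop := ∀ d, 0 < d → (∀ t, Y.P (t + d) = Y.P t) → Y.w ≤ d

theorem Prim.mem {l Y : Layer} (h : Prim l) (hY : Mem l Y) : Prim Y := by
  obtain ⟨e, rfl⟩ := hY
  intro d hd hP
  refine h d hd (fun t => ?_)
  have := hP (t - e)
  simp only [Layer.sh] at this
  rwa [show t - e + d + e = t + d by ring, sub_add_cancel] at this

theorem split {Y : Layer} (h : ¬ Prim Y) : ∃ Y1 Y2 : Layer, ∀ v, dn Y1 v + dn Y2 v = dn Y v := by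
  unfold Prim at h
  push Not at h
  obtain ⟨d, hd, hP, hdw⟩ := h
  have hs := psum_sh Y (fun X => (X.r 0).toNat) d
  have hne : (Ico 0 Y.w).Nonempty := ⟨0, mem_Ico.2 ⟨le_rfl, Y.w_pos⟩⟩
  obtain ⟨i0, -, hi0⟩ := Finset.exists_le_of_sum_le hne hs.le
  obtain ⟨i1, -, hi1⟩ := Finset.exists_le_of_sum_le hne hs.ge
  simp only [Layer.sh, zero_add] at hi0 hi1
  have a1 := Y.lt i0
  have a2 := Y.lt (d + i0)
  have a3 := Y.lt i1
  have a4 := Y.lt (d + i1)
  have hw := Y.w_pos
  obtain ⟨i, ⟨b1, b2⟩, hi⟩ := Int.exists_least_of_bdd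
    (P := fun i => i0 < i ∧ Y.r i + d ≤ Y.r (d + i)) ⟨i0, fun _ h => h.1.le⟩
    ⟨i1 + (|i0 - i1| + 1) * Y.w, by nlinarith [le_abs_self (i0 - i1), abs_nonneg (i0 - i1)], by
      rw [← add_assoc, Y.rper_mul, Y.rper_mul]; omega⟩
  have b3 : Y.r (d + (i - 1)) ≤ Y.r (i - 1) + d := by
    by_cases b4 : i - 1 = i0
    · rw [b4]; omega
    · by_contra b5
      have := hi (i - 1) ⟨by omega, by omega⟩
      omega
  have b4 := Y.mono (show i - 1 ≤ i by omega)
  obtain ⟨Y1, c1, c2, c3⟩ := exists_layer hd (P := (Y.sh i).P)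
    (fun t => by simp only [Layer.sh]; rw [show t + d + i = t + i + d by ring, hP]) (Y.sh i).r
    (fun t _ _ => (Y.sh i).lt t) (fun t _ _ => (Y.sh i).step t) (by
      simp only [Layer.sh, zero_add]; rw [show d - 1 + i = d + (i - 1) by ring]; omega)
  obtain ⟨Y2, d1, d2, d3⟩ := exists_layer (w := Y.w - d) (by omega) (P := ((Y.sh i).sh d).P)
    (fun t => by
      simp only [Layer.sh]
      rw [show t + (Y.w - d) + d + i = t + i + Y.w by ring, Y.per,
        show t + d + i = t + i + d by ring, hP]) ((Y.sh i).sh d).r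
    (fun t _ _ => ((Y.sh i).sh d).lt t) (fun t _ _ => ((Y.sh i).sh d).step t) (by
      simp only [Layer.sh, zero_add]
      rw [show Y.w - d - 1 + d + i = i - 1 + Y.w by ring, Y.rper]; omega)
  refine ⟨Y1, Y2, fun v => ?_⟩
  rw [← dn_sh Y i, dn_eq, dn_eq, dn_eq, c1, d1, c2, d2,
    Finset.sum_congr rfl (fun t ht => by rw [c3 t (mem_Ico.1 ht).1 (mem_Ico.1 ht).2]),
    Finset.sum_congr (s₁ := Ico 0 (Y.w - d)) rfl (g := fun t =>
      if word (Y.sh i).P (t + d) ((Y.sh i).r (t + d)) = v then 1 else 0) (fun t ht => by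
      refine if_congr ?_ rfl rfl
      rw [d3 t (mem_Ico.1 ht).1 (mem_Ico.1 ht).2, Layer.word_sh]; simp [Layer.sh]),
    Finset.sum_Ico_add' (fun t => if word (Y.sh i).P t ((Y.sh i).r t) = v then 1 else 0),
    ← Finset.sum_union (by
      rw [zero_add]; exact Finset.Ico_disjoint_Ico_consecutive _ _ _),
    zero_add, sub_add_cancel, Finset.Ico_union_Ico_eq_Ico hd.le hdw.le]
  rfl

theorem uncross {Y Z : Layer} (hw : Y.w = Z.w) (hP : Y.P = Z.P) (h1 : ¬ ∀ t, Y.r t ≤ Z.r t)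
    (h2 : ¬ ∀ t, Z.r t ≤ Y.r t) : ∃ A B : Layer, A.w = Y.w ∧ A.P = Y.P ∧ B.w = Y.w ∧ B.P = Y.P ∧
      (∀ v, dn A v + dn B v = dn Y v + dn Z v) ∧
      Y.area ^ 2 + Z.area ^ 2 < A.area ^ 2 + B.area ^ 2 := by
  let A : Layer := ⟨Y.w, Y.P, fun t => max (Y.r t) (Z.r t), Y.w_pos, Y.per,
    fun t => by have := Y.rper t; have := Z.rper t; rw [← hw] at this; omega,
    fun t => by have := Y.step t; have := Z.step t; omega,
    fun t => by have := Y.lt t; omega⟩
  let B : Layer := ⟨Y.w, Y.P, fun t => min (Y.r t) (Z.r t), Y.w_pos, Y.per,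
    fun t => by have := Y.rper t; have := Z.rper t; rw [← hw] at this; omega,
    fun t => by have := Y.step t; have := Z.step t; omega,
    fun t => by have := Y.lt t; have := Z.lt t; omega⟩
  refine ⟨A, B, rfl, rfl, rfl, rfl, fun v => ?_, ?_⟩
  · rw [dn_eq, dn_eq, dn_eq, dn_eq, ← hw, ← hP, ← Finset.sum_add_distrib,
      ← Finset.sum_add_distrib]
    refine Finset.sum_congr rfl (fun t _ => ?_)
    rcases le_total (Y.r t) (Z.r t) with h | h
    · simp only [A, B, max_eq_right h, min_eq_left h]; omega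
    · simp only [A, B, max_eq_left h, min_eq_right h]
  · have e1 : A.area + B.area = Y.area + Z.area := by
      unfold Layer.area
      rw [← hw, ← Finset.sum_add_distrib, ← Finset.sum_add_distrib]
      exact Finset.sum_congr rfl (fun t _ => by simp only [A, B]; omega)
    have e2 : Y.area < A.area := Layer.area_lt rfl (fun t => le_max_left _ _)
      (fun h => h2 (fun t => by rw [h]; exact le_max_right _ _))
    have e3 : Z.area < A.area := Layer.area_lt hw.symm (fun t => le_max_right _ _)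
      (fun h => h1 (fun t => by rw [h]; exact le_max_left _ _))
    have e4 : B.area = Y.area + Z.area - A.area := by omega
    rw [e4]
    nlinarith [mul_pos (sub_pos.2 e2) (sub_pos.2 e3)]

/-- The layers use each descending arc with the prescribed multiplicity. -/
def Dec (D : List ℕ → ℕ) (M : Multiset Layer) : Prop := ∀ v, (M.map (fun l => dn l v)).sum = D v

theorem Dec.le {D : List ℕ → ℕ} {M : Multiset Layer} (h : Dec D M) {l : Layer} (hl : l ∈ M)
    (v : List ℕ) : dn l v ≤ D v := by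
  rw [← h v]; exact Multiset.le_sum_of_mem (Multiset.mem_map_of_mem (fun l => dn l v) hl)

theorem sum_dn {C : Finset (List ℕ)} {Y : Layer} (h : ∀ X, Mem Y X → word X.P 0 (X.r 0) ∈ C) :
    ((∑ v ∈ C, dn Y v : ℕ) : ℤ) = Y.w := by
  unfold dn
  rw [← psum_sum, ← psum_one]
  congr 1
  refine psum_congr (fun X hX => ?_)
  simp [h X hX]

theorem sum_w_le {D : List ℕ → ℕ} {M B : Multiset Layer} (h : Dec D M) (hB : B ≤ M)
    {C : Finset (List ℕ)} (hC : ∀ l ∈ B, ∀ X, Mem l X → word X.P 0 (X.r 0) ∈ C) :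
    (B.map Layer.w).sum ≤ ((∑ v ∈ C, D v : ℕ) : ℤ) := by
  have e1 : (B.map Layer.w).sum = ((∑ v ∈ C, (B.map (fun l => dn l v)).sum : ℕ) : ℤ) := by
    rw [← Multiset.sum_map_sum, Nat.cast_multiset_sum, Multiset.map_map]
    exact congrArg _ (Multiset.map_congr rfl (fun l hl => (sum_dn (hC l hl)).symm))
  rw [e1]
  refine Int.ofNat_le.2 (Finset.sum_le_sum (fun v _ => ?_))
  obtain ⟨R, rfl⟩ := Multiset.le_iff_exists_add.1 hB
  rw [← h v, Multiset.map_add, Multiset.sum_add]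
  omega

theorem exists_max {A : Type} (p : A → Prop) (f : A → ℤ) (B : ℤ) (h : ∃ x, p x)
    (hb : ∀ x, p x → f x ≤ B) : ∃ x, p x ∧ ∀ y, p y → f y ≤ f x := by
  obtain ⟨z, ⟨x, hx, rfl⟩, hz⟩ := Int.exists_greatest_of_bdd (P := fun z => ∃ x, p x ∧ f x = z)
    ⟨B, by rintro z ⟨x, hx, rfl⟩; exact hb x hx⟩ (by obtain ⟨x, hx⟩ := h; exact ⟨_, x, hx, rfl⟩)
  exact ⟨x, hx, fun y hy => hz _ ⟨y, hy, rfl⟩⟩

theorem same_of_prim {l Y Z : Layer} (h : Prim l) (hY : Mem l Y) (hZ : Mem l Z) (hP : Y.P = Z.P) :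
    Y = Z := by
  obtain ⟨d, rfl⟩ := hY
  obtain ⟨e, rfl⟩ := hZ
  have hw := l.w_pos
  have h1 : ∀ t, l.P (t + (d - e) % l.w) = l.P t := by
    intro t
    have h2 := congrFun hP (t - e)
    simp only [Layer.sh, sub_add_cancel] at h2
    rw [← h2, ← per_mul l.per ((d - e) / l.w)]
    congr 1
    linarith [Int.emod_add_mul_ediv (d - e) l.w]
  have h2 : (d - e) % l.w = 0 := by
    by_contra h3
    have := Int.emod_nonneg (d - e) hw.ne'
    have := Int.emod_lt_of_pos (d - e) hw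
    have := h _ (by omega) h1
    omega
  have h3 : d = e + (d - e) / l.w * l.w := by linarith [Int.emod_add_mul_ediv (d - e) l.w]
  refine Layer.ext' rfl hP (funext fun t => ?_)
  simp only [Layer.sh]
  rw [h3, ← add_assoc, l.rper_mul]; ring

theorem exists_normal {D : List ℕ → ℕ} {Z : Finset (List ℕ)} (hD : ∀ v, 0 < D v → v ∈ Z)
    (h : ∃ M, Dec D M) : ∃ M, Dec D M ∧ (∀ l ∈ M, Prim l) ∧
      ∀ l ∈ M, ∀ l' ∈ M, ∀ Y Y', Mem l Y → Mem l' Y' → Y.P = Y'.P →
        Y.w = Y'.w ∧ ((∀ t, Y.r t ≤ Y'.r t) ∨ (∀ t, Y'.r t ≤ Y.r t)) := by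
  have hin : ∀ M, Dec D M → ∀ l ∈ M, ∀ X, Mem l X → word X.P 0 (X.r 0) ∈ Z :=
    fun M hM l hl X hX => hD _ ((dn_pos hX 0).trans_le (hM.le hl _))
  set W : ℤ := ((∑ v ∈ Z, D v : ℕ) : ℤ) with hW
  have hcard : ∀ M, Dec D M → (M.card : ℤ) ≤ W := by
    intro M hM
    refine le_trans ?_ (sum_w_le hM le_rfl (hin M hM))
    have := Multiset.card_nsmul_le_sum (s := M.map Layer.w) (a := 1) (by
      intro x hx
      obtain ⟨l, -, rfl⟩ := Multiset.mem_map.1 hx
      exact l.w_pos)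
    simpa using this
  obtain ⟨M1, h1, hmax1⟩ := exists_max (Dec D) (fun M => M.card) W h hcard
  have hprim : ∀ l ∈ M1, Prim l := by
    intro l hl
    by_contra hp
    obtain ⟨Y1, Y2, hY⟩ := split hp
    obtain ⟨R, rfl⟩ := Multiset.exists_cons_of_mem hl
    have := hmax1 (Y1 ::ₘ Y2 ::ₘ R) (fun v => by
      rw [← h1 v]; simp only [Multiset.map_cons, Multiset.sum_cons, ← hY v]; omega)
    simp at this
  obtain ⟨N, hN⟩ : ∃ N : ℕ, ∀ v ∈ Z, v.length ≤ N :=
    ⟨Z.sup List.length, fun v hv => Finset.le_sup hv⟩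
  obtain ⟨M, ⟨hM, hp⟩, hmax⟩ := exists_max (fun M => Dec D M ∧ ∀ l ∈ M, Prim l)
    (fun M => (M.map (fun l => l.area ^ 2)).sum) (W * (W * N) ^ 2) ⟨M1, h1, hprim⟩ (by
      rintro M ⟨hM, -⟩
      have h2 := Multiset.sum_le_card_nsmul (M.map (fun l => l.area ^ 2)) ((W * N) ^ 2) (by
        intro x hx
        obtain ⟨l, hl, rfl⟩ := Multiset.mem_map.1 hx
        have a1 : l.w ≤ W := by
          have := sum_w_le hM (Multiset.singleton_le.2 hl)
            (fun l' hl' => hin M hM l' (by rwa [Multiset.mem_singleton.1 hl']))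
          rwa [Multiset.map_singleton, Multiset.sum_singleton] at this
        have a2 : psum l (fun X => (X.r 0).toNat) ≤ psum l (fun _ => N) :=
          psum_le (fun X hX => by simpa using hN _ (hin M hM l hl X hX))
        have a3 : (psum l (fun _ => N) : ℤ) = l.w * N := by
          have := l.w_pos
          simp [psum, this.le]
        have a4 : l.area ≤ W * N := by
          rw [area_eq]
          have : l.w * N ≤ W * N := mul_le_mul_of_nonneg_right a1 (by positivity)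
          omega
        exact pow_le_pow_left₀ l.area_nonneg a4 2)
      rw [Multiset.card_map, nsmul_eq_mul] at h2
      exact h2.trans (mul_le_mul_of_nonneg_right (hcard M hM) (by positivity)))
  refine ⟨M, hM, hp, fun l hl l' hl' Y Y' hY hY' hP => ?_⟩
  have hw : Y.w = Y'.w := le_antisymm
    ((hp l hl).mem hY _ Y'.w_pos (by rw [hP]; exact Y'.per))
    ((hp l' hl').mem hY' _ Y.w_pos (by rw [← hP]; exact Y.per))
  refine ⟨hw, ?_⟩
  by_contra hc
  rw [not_or] at hc
  have hne : l' ≠ l := by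
    rintro rfl
    rw [same_of_prim (hp l' hl) hY hY' hP] at hc
    exact hc.1 (fun _ => le_rfl)
  obtain ⟨R1, rfl⟩ := Multiset.exists_cons_of_mem hl
  obtain ⟨R, rfl⟩ := Multiset.exists_cons_of_mem ((Multiset.mem_cons.1 hl').resolve_left hne)
  obtain ⟨A, B, a1, a2, b1, b2, hdn, har⟩ := uncross hw hP hc.1 hc.2
  have pY := (hp l hl).mem hY
  obtain ⟨d, rfl⟩ := hY
  obtain ⟨d', rfl⟩ := hY'
  rw [area_sh, area_sh] at har
  have := hmax (A ::ₘ B ::ₘ R) ⟨fun v => by
    have := hdn v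
    rw [dn_sh, dn_sh] at this
    rw [← hM v]; simp only [Multiset.map_cons, Multiset.sum_cons]; omega, by
    intro x hx
    rcases Multiset.mem_cons.1 hx with rfl | hx
    · unfold Prim; rw [a1, a2]; exact pY
    · rcases Multiset.mem_cons.1 hx with rfl | hx
      · unfold Prim; rw [b1, b2]; exact pY
      · exact hp x (Multiset.mem_cons_of_mem (Multiset.mem_cons_of_mem hx))⟩
  simp only [Multiset.map_cons, Multiset.sum_cons] at this
  omega

end Vale.Agent.P333
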