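import Mathlib

namespace Vale.Agent.P333

/-- Self-delimiting binary code of a natural number: each binary digit `b` (least significant
first) is written `1 b`, and a final `0` ends the number. -/
def encNat (a : ℕ) : List Bool := a.bits.flatMap (fun b => [true, b]) ++ [false]

/-- Binary code of a string whose letters are natural numbers. -/
def encStr (s : List ℕ) : List Bool := s.flatMap encNat

/-- Binary code of an instance (a finite family of strings): letter `a` is written as the number
`a + 1`, and the number `0` ends each string. -/
def encInst (S : List (List ℕ)) : List Bool :=
  encStr (S.flatMap (fun s => s.map (fun a => a + 1) ++ [0]))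

/-- `T` contains every string of the family as a contiguous substring. -/
def IsSuper (S : List (List ℕ)) (T : List ℕ) : Prop := ∀ s ∈ S, s <:+: T

/-- The minimum length of a common superstring. -/
noncomputable def opt (S : List (List ℕ)) : ℕ := sInf {n | ∃ T, IsSuper S T ∧ T.length = n}

/-- A `ρ`-approximation exists: a deterministic polynomial-time machine (finite control, finitely
many stacks, finite alphabets) outputs on every instance a common superstring of length at most
`ρ` times the optimum. -/
def HasApprox (ρ : ℝ) : Prop :=
  ∃ f : List (List ℕ) → List ℕ,
    (∃ M : Turing.TM2ComputableInPolyTime encInst encStr f, ∀ k : M.tm.K, Finite (M.tm.Γ k)) ∧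
    ∀ S, IsSuper S (f S) ∧ ((f S).length : ℝ) ≤ ρ * opt S

/-- The approximation threshold: the infimum of all achievable ratios. -/
noncomputable def rhoStar : ℝ := sInf {ρ : ℝ | 1 ≤ ρ ∧ HasApprox ρ}

end Vale.Agent.P333
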