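import Vale.Agent.P333.Table

/-! Splitting the balanced multigraph of arcs into closed walks. -/

namespace Vale.Agent.P333

open Vale.Agent.Lib.PolyTime Finset

/-- Multiplicity of ascending arcs. -/
def upB (S : List (List ℕ)) (v : List ℕ) : ℕ :=
  mm S v - (((subs S).filter (fun z => decide (z.tail = v))).map (mm S)).sum

/-- Multiplicity of descending arcs. -/
def downB (S : List (List ℕ)) (v : List ℕ) : ℕ :=
  mm S v - (((subs S).filter (fun z => decide (z.dropLast = v))).map (mm S)).sum

/-- The arcs, with multiplicity. -/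
def arcs (S : List (List ℕ)) : List (List ℕ × List ℕ) :=
  (subs S).flatMap (fun v => (S.flatten.take (upB S v)).map (fun _ => (v.dropLast, v)) ++
    (S.flatten.take (downB S v)).map (fun _ => (v, v.tail)))

/-- One step of the walk decomposition: remaining arcs, current walk, finished walks. -/
def hstep (s : List (List ℕ × List ℕ) × List (List ℕ) × List (List (List ℕ))) :
    List (List ℕ × List ℕ) × List (List ℕ) × List (List (List ℕ)) :=
  if s.1.dropWhile (fun e => decide (e.1 ≠ s.2.1.getLastD [])) = [] then
    (s.1.tail, [s.1.headI.1, s.1.headI.2], s.2.1 :: s.2.2)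
  else
    (s.1.takeWhile (fun e => decide (e.1 ≠ s.2.1.getLastD [])) ++
      (s.1.dropWhile (fun e => decide (e.1 ≠ s.2.1.getLastD []))).tail,
     s.2.1 ++ [(s.1.dropWhile (fun e => decide (e.1 ≠ s.2.1.getLastD []))).headI.2], s.2.2)

/-- Final state of the walk decomposition. -/
def hrun (A : List (List ℕ × List ℕ)) :
    List (List ℕ × List ℕ) × List (List ℕ) × List (List (List ℕ)) :=
  A.foldl (fun s _ => hstep s) (A, [[]], [])

/-- The closed walks. -/
def tours (S : List (List ℕ)) : List (List (List ℕ)) :=
  (hrun (arcs S)).2.1 :: (hrun (arcs S)).2.2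

theorem upB_eq (S : List (List ℕ)) : upB S = up (subs S).toFinset (mm S) := by
  funext v; rw [upB, up, sum_filter_eq (nodup_subs S)]

theorem downB_eq (S : List (List ℕ)) : downB S = down (subs S).toFinset (mm S) := by
  funext v; rw [downB, down, sum_filter_eq (nodup_subs S)]

theorem arcs_eq (S : List (List ℕ)) : arcs S = (subs S).flatMap (fun v =>
    List.replicate (upB S v) (v.dropLast, v) ++ List.replicate (downB S v) (v, v.tail)) := by
  unfold arcs
  congr 1
  funext v
  have h1 : upB S v ≤ S.flatten.length := (Nat.sub_le _ _).trans (mm_le S v)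
  have h2 : downB S v ≤ S.flatten.length := (Nat.sub_le _ _).trans (mm_le S v)
  rw [List.map_const', List.map_const', List.length_take, List.length_take, min_eq_left h1,
    min_eq_left h2]

theorem sum_arcs (S : List (List ℕ)) (g : List ℕ × List ℕ → ℕ) :
    ((arcs S).map g).sum = ∑ v ∈ (subs S).toFinset,
      (upB S v * g (v.dropLast, v) + downB S v * g (v, v.tail)) := by
  rw [arcs_eq, List.sum_toFinset _ (nodup_subs S)]
  induction subs S with
  | nil => simp
  | cons a l ih => simp [ih, add_assoc]

theorem mem_arcs {S : List (List ℕ)} {e : List ℕ × List ℕ} : e ∈ arcs S ↔ ∃ v ∈ subs S,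
    (0 < upB S v ∧ e = (v.dropLast, v)) ∨ (0 < downB S v ∧ e = (v, v.tail)) := by
  simp only [arcs_eq, List.mem_flatMap, List.mem_append, List.mem_replicate, Nat.pos_iff_ne_zero]

theorem balanced (S : List (List ℕ)) (x : List ℕ) :
    ((arcs S).map (fun e => if e.1 = x then 1 else 0)).sum =
      ((arcs S).map (fun e => if e.2 = x then 1 else 0)).sum := by
  classical
  rw [sum_arcs, sum_arcs, upB_eq, downB_eq]
  have h := mdata S
  generalize (subs S).toFinset = Z at h
  generalize mm S = m at h
  simp only [Finset.sum_add_distrib, mul_ite, mul_one, mul_zero, ← Finset.sum_filter]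
  have a1 : ∑ z ∈ Z.filter (fun z => z.dropLast = x), up Z m z +
      ∑ y ∈ Z.filter (fun y => y.tail ∈ Z.filter (fun z => z.dropLast = x)), m y =
      ∑ z ∈ Z.filter (fun z => z.dropLast = x), m z := by
    rw [← Finset.sum_fiberwise_eq_sum_filter, ← Finset.sum_add_distrib]
    refine Finset.sum_congr rfl (fun v hv => ?_)
    have := h.left v (mem_filter.1 hv).1
    unfold up; omega
  have a2 : ∑ z ∈ Z.filter (fun z => z.tail = x), down Z m z +
      ∑ y ∈ Z.filter (fun y => y.dropLast ∈ Z.filter (fun z => z.tail = x)), m y =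
      ∑ z ∈ Z.filter (fun z => z.tail = x), m z := by
    rw [← Finset.sum_fiberwise_eq_sum_filter, ← Finset.sum_add_distrib]
    refine Finset.sum_congr rfl (fun v hv => ?_)
    have := h.right v (mem_filter.1 hv).1
    unfold down; omega
  have a3 : Z.filter (fun y => y.tail ∈ Z.filter (fun z => z.dropLast = x)) =
      Z.filter (fun y => y.dropLast ∈ Z.filter (fun z => z.tail = x)) := by
    refine Finset.filter_congr (fun y hy => ?_)
    rw [mem_filter, mem_filter, List.tail_dropLast]
    refine and_congr ⟨fun h1 => ?_, fun h1 => ?_⟩ Iff.rfl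
    · have := List.length_pos_iff.2 (show y.tail ≠ [] from fun e => h.ne (e ▸ h1))
      exact h.closed y hy _ (List.length_pos_iff.1 (by simpa using this))
        (List.dropLast_prefix y).isInfix
    · have := List.length_pos_iff.2 (show y.dropLast ≠ [] from fun e => h.ne (e ▸ h1))
      exact h.closed y hy _ (List.length_pos_iff.1 (by simpa using this))
        (List.tail_suffix y).isInfix
  rw [a3] at a1
  rw [Finset.filter_eq']
  by_cases hx : x ∈ Z
  · have b1 := h.left x hx
    have b2 := h.right x hx
    simp only [hx, if_true, Finset.sum_singleton]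
    unfold up down at *
    omega
  · simp only [hx, if_false, Finset.sum_empty]
    have : Z.filter (fun z => z.dropLast = x) = Z.filter (fun z => z.tail = x) := by
      refine Finset.filter_congr (fun y hy => ?_)
      by_cases h0 : x = []
      · subst h0
        rw [← List.length_eq_zero_iff, ← List.length_eq_zero_iff]; simp
      · constructor
        · intro e; exact absurd (h.closed y hy x h0 (e ▸ (List.dropLast_prefix y).isInfix)) hx
        · intro e; exact absurd (h.closed y hy x h0 (e ▸ (List.tail_suffix y).isInfix)) hx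
    rw [this] at a1 ⊢
    omega

/-- Consecutive pairs of a walk. -/
def parcs : List (List ℕ) → List (List ℕ × List ℕ)
  | a :: b :: l => (a, b) :: parcs (b :: l)
  | _ => []

theorem parcs_concat (a y : List ℕ) (l : List (List ℕ)) :
    parcs (a :: l ++ [y]) = parcs (a :: l) ++ [(l.getLastD a, y)] := by
  induction l generalizing a with
  | nil => rfl
  | cons b l ih => simp only [List.cons_append, parcs, List.getLastD_cons] at ih ⊢; rw [ih]

theorem parcs_count (x a : List ℕ) (l : List (List ℕ)) :
    ((parcs (a :: l)).map (fun e => if e.1 = x then 1 else 0)).sum +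
      (if l.getLastD a = x then 1 else 0) =
    ((parcs (a :: l)).map (fun e => if e.2 = x then 1 else 0)).sum + (if a = x then 1 else 0) := by
  induction l generalizing a with
  | nil => rfl
  | cons b l ih =>
    have := ih b
    simp only [parcs, List.map_cons, List.sum_cons, List.getLastD_cons]
    omega

theorem mem_of_parcs {e : List ℕ × List ℕ} {l : List (List ℕ)} (h : e ∈ parcs l) :
    e.1 ∈ l ∧ e.2 ∈ l := by
  induction l using parcs.induct with
  | case1 a b l ih =>
    rcases List.mem_cons.1 h with rfl | h
    · simp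
    · exact ⟨List.mem_cons_of_mem _ (ih h).1, List.mem_cons_of_mem _ (ih h).2⟩
  | case2 l hl => rw [parcs] at h; · simp at h
                  exact hl

/-- A closed walk. -/
def Closd (T : List (List ℕ)) : Prop := ∃ a l, T = a :: l ∧ l.getLastD a = a

/-- Invariant of the walk decomposition. -/
def HInv (A : List (List ℕ × List ℕ))
    (s : List (List ℕ × List ℕ) × List (List ℕ) × List (List (List ℕ))) : Prop :=
  s.2.1 ≠ [] ∧ (∀ T ∈ s.2.2, Closd T) ∧ (s.1 ++ (s.2.1 :: s.2.2).flatMap parcs).Perm A ∧
    ∃ T ∈ s.2.1 :: s.2.2, [] ∈ T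

theorem HInv.closd {A : List (List ℕ × List ℕ)} (hA : ∀ x,
    (A.map (fun e => if e.1 = x then 1 else 0)).sum = (A.map (fun e => if e.2 = x then 1 else 0)).sum)
    {s : List (List ℕ × List ℕ) × List (List ℕ) × List (List (List ℕ))} (h : HInv A s)
    (hs : ∀ e ∈ s.1, e.1 ≠ s.2.1.getLastD []) : Closd s.2.1 := by
  obtain ⟨rem, cur, dn⟩ := s
  obtain ⟨h1, h2, h3, -⟩ := h
  obtain ⟨a, l, rfl⟩ := List.exists_cons_of_ne_nil h1
  refine ⟨a, l, rfl, ?_⟩
  simp only [List.getLastD_cons] at hs h2 h3
  set x := l.getLastD a with hx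
  have e1 := hA x
  rw [← (h3.map _).sum_eq, ← (h3.map _).sum_eq] at e1
  have e2 : ((dn.flatMap parcs).map (fun e => if e.1 = x then 1 else 0)).sum =
      ((dn.flatMap parcs).map (fun e => if e.2 = x then 1 else 0)).sum := by
    clear h3 e1 h1
    induction dn with
    | nil => rfl
    | cons T dn ih =>
      obtain ⟨b, k, rfl, hb⟩ := h2 T (by simp)
      have := parcs_count x b k
      rw [hb] at this
      simp only [List.flatMap_cons, List.map_append, List.sum_append,
        ih (fun T hT => h2 T (by simp [hT]))]
      omega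
  have e3 : (rem.map (fun e => if e.1 = x then 1 else 0)).sum = 0 :=
    List.sum_eq_zero (fun y hy => by
      obtain ⟨e, he, rfl⟩ := List.mem_map.1 hy
      exact if_neg (hs e he))
  have e4 := parcs_count x a l
  simp only [List.flatMap_cons, List.map_append, List.sum_append] at e1
  rw [if_pos hx.symm] at e4
  by_contra h
  rw [if_neg (fun e => h e.symm)] at e4
  omega

theorem HInv.step {A : List (List ℕ × List ℕ)} (hA : ∀ x,
    (A.map (fun e => if e.1 = x then 1 else 0)).sum = (A.map (fun e => if e.2 = x then 1 else 0)).sum)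
    {s : List (List ℕ × List ℕ) × List (List ℕ) × List (List (List ℕ))} (h : HInv A s)
    (hs : s.1 ≠ []) : HInv A (hstep s) ∧ (hstep s).1.length + 1 = s.1.length := by
  unfold hstep
  split_ifs with h0
  · have hc := h.closd hA (by simpa using h0)
    obtain ⟨rem, cur, dn⟩ := s
    obtain ⟨e, rem, rfl⟩ := List.exists_cons_of_ne_nil hs
    obtain ⟨-, h2, h3, h4⟩ := h
    refine ⟨⟨by simp, ?_, ?_, ?_⟩, by simp⟩
    · intro T hT
      rcases List.mem_cons.1 hT with rfl | hT
      exacts [hc, h2 T hT]
    · refine List.Perm.trans ?_ h3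
      simp only [List.tail_cons, List.headI_cons, List.flatMap_cons, parcs, List.cons_append,
        List.nil_append]
      exact List.perm_middle
    · obtain ⟨T, hT, h5⟩ := h4
      exact ⟨T, List.mem_cons_of_mem _ hT, h5⟩
  · obtain ⟨rem, cur, dn⟩ := s
    obtain ⟨h1, h2, h3, h4⟩ := h
    obtain ⟨a, l, rfl⟩ := List.exists_cons_of_ne_nil h1
    simp only [List.getLastD_cons] at *
    have e1 := List.takeWhile_append_dropWhile (p := fun e => decide (e.1 ≠ l.getLastD a)) (l := rem)
    have e2 := List.head_dropWhile_not (fun e : List ℕ × List ℕ => decide (e.1 ≠ l.getLastD a)) h0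
    obtain ⟨e, r, hr⟩ := List.exists_cons_of_ne_nil h0
    simp only [hr, List.head_cons, decide_eq_false_iff_not, not_not] at e2
    rw [hr] at e1 ⊢
    generalize rem.takeWhile (fun e => decide (e.1 ≠ l.getLastD a)) = q at e1
    subst e1
    refine ⟨⟨by simp, h2, ?_, ?_⟩, by simp; omega⟩
    · refine List.Perm.trans ?_ h3
      simp only [List.tail_cons, List.headI_cons, List.flatMap_cons, parcs_concat, ← e2]
      simp only [List.append_assoc, List.cons_append, List.nil_append]
      refine List.Perm.append_left _ ?_
      rw [← List.append_assoc, ← List.append_assoc]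
      exact List.perm_middle
    · obtain ⟨T, hT, h5⟩ := h4
      rcases List.mem_cons.1 hT with rfl | hT
      · exact ⟨_, List.mem_cons_self, List.mem_append_left _ h5⟩
      · exact ⟨T, List.mem_cons_of_mem _ hT, h5⟩

theorem tours_spec (S : List (List ℕ)) : (∀ T ∈ tours S, Closd T) ∧
    ((tours S).flatMap parcs).Perm (arcs S) ∧ ∃ T ∈ tours S, [] ∈ T := by
  have key : ∀ (L : List (List ℕ × List ℕ)) s, HInv (arcs S) s → s.1.length = L.length →
      HInv (arcs S) (L.foldl (fun s _ => hstep s) s) ∧ (L.foldl (fun s _ => hstep s) s).1 = [] := by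
    intro L
    induction L with
    | nil => exact fun s h hl => ⟨h, List.length_eq_zero_iff.1 hl⟩
    | cons e L ih =>
      intro s h hl
      obtain ⟨h1, h2⟩ := h.step (balanced S) (List.length_pos_iff.1 (by rw [hl]; simp))
      exact ih (hstep s) h1 (by simp at hl; omega)
  obtain ⟨h1, h2⟩ := key (arcs S) (arcs S, [[]], [])
    ⟨by simp, by simp, by simp [parcs], [[]], by simp, by simp⟩ rfl
  have h3 := h1.closd (balanced S) (by rw [h2]; simp)
  obtain ⟨-, h4, h5, h6⟩ := h1
  rw [h2, List.nil_append] at h5
  refine ⟨fun T hT => ?_, h5, h6⟩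
  rcases List.mem_cons.1 hT with rfl | hT
  exacts [h3, h4 T hT]

/-- An arc of the hierarchical graph. -/
def IsArc (e : List ℕ × List ℕ) : Prop :=
  (e.2 ≠ [] ∧ e.1 = e.2.dropLast) ∨ (e.1 ≠ [] ∧ e.2 = e.1.tail)

theorem isArc_of_mem {S : List (List ℕ)} {e : List ℕ × List ℕ} (h : e ∈ arcs S) : IsArc e := by
  obtain ⟨v, hv, ⟨-, rfl⟩ | ⟨-, rfl⟩⟩ := mem_arcs.1 h
  · exact Or.inl ⟨(mem_subs.1 hv).1, rfl⟩
  · exact Or.inr ⟨(mem_subs.1 hv).1, rfl⟩

/-- Tails of the descending arcs of a walk. -/
def dts (T : List (List ℕ)) : List (List ℕ) :=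
  ((parcs T).filter (fun e => decide (e.2.length < e.1.length))).map (fun e => e.1)

theorem dts_cons (a b : List ℕ) (l : List (List ℕ)) :
    dts (a :: b :: l) = if b.length < a.length then a :: dts (b :: l) else dts (b :: l) := by
  unfold dts
  by_cases h : b.length < a.length <;> simp [parcs, h]

theorem chain_dts (l : List (List ℕ)) : ∀ x g : List ℕ, g.tail <+: x →
    (∀ e ∈ parcs (x :: l), IsArc e) →
    List.IsChain (fun d d' : List ℕ => d.tail <+: d') (g :: (dts (x :: l) ++ [l.getLastD x])) ∧
      ∀ d ∈ dts (x :: l), d ≠ [] := by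
  induction l with
  | nil => intro x g h _; simp [dts, parcs, h]
  | cons y l ih =>
    intro x g h ha
    have ha' : ∀ e ∈ parcs (y :: l), IsArc e := fun e he => ha e (List.mem_cons_of_mem _ he)
    rw [dts_cons, List.getLastD_cons]
    rcases ha (x, y) List.mem_cons_self with ⟨h1, h2⟩ | ⟨h1, h2⟩
    · simp only at h1 h2
      rw [if_neg (by rw [h2]; simp)]
      exact ih y g (h.trans (h2 ▸ List.dropLast_prefix y)) ha'
    · simp only at h1 h2
      have := List.length_pos_iff.2 h1
      rw [if_pos (by rw [h2]; simp; omega)]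
      obtain ⟨h3, h4⟩ := ih y x (h2 ▸ List.prefix_rfl) ha'
      refine ⟨List.IsChain.cons_cons h h3, fun d hd => ?_⟩
      rcases List.mem_cons.1 hd with rfl | hd
      exacts [h1, h4 d hd]

theorem sum_Ico_list (D : List (List ℕ)) (F : List ℕ → ℕ) :
    ∑ t ∈ Ico (0 : ℤ) D.length, F (D.getD t.toNat []) = (D.map F).sum := by
  induction D using List.reverseRecOn with
  | nil => simp
  | append_singleton D a ih =>
    rw [List.length_append, List.length_singleton, Nat.cast_add, Nat.cast_one,
      ← Finset.insert_Ico_right_eq_Ico_add_one (by omega), Finset.sum_insert (by simp),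
      Finset.sum_congr rfl (g := fun t : ℤ => F (D.getD t.toNat [])) (fun t ht => by
        rw [List.getD_append _ _ _ _ (by have := mem_Ico.1 ht; omega)]), ih]
    simp [add_comm]

theorem layer_of_cycle {D : List (List ℕ)} (h0 : D ≠ []) (h1 : ∀ d ∈ D, d ≠ [])
    (h2 : List.IsChain (fun d d' : List ℕ => d.tail <+: d') (D.getLast h0 :: D)) :
    ∃ Y : Layer, ∀ v, dn Y v = (D.map (fun d => if d = v then 1 else 0)).sum := by
  have hw : (0 : ℤ) < D.length := by have := List.length_pos_iff.2 h0; omega
  let dd : ℤ → List ℕ := fun t => D.getD (t % D.length).toNat []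
  have e : ∀ t : ℤ, 0 ≤ t % D.length ∧ t % D.length < D.length := fun t =>
    ⟨Int.emod_nonneg _ hw.ne', Int.emod_lt_of_pos _ hw⟩
  have hper : ∀ t, dd (t + D.length) = dd t := fun t => by simp [dd]
  have hne : ∀ t, 0 < (dd t).length := fun t => List.length_pos_iff.2 (h1 _ (by
    have := e t
    simp only [dd]; rw [List.getD_eq_getElem _ _ (by omega)]; exact List.getElem_mem _))
  have hR : ∀ t, (dd t).tail <+: dd (t + 1) := by
    intro t
    obtain ⟨e1, e2⟩ := e t
    rw [List.isChain_iff_getElem] at h2
    simp only [dd]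
    by_cases h : t % D.length + 1 < D.length
    · have e3 : (t + 1) % D.length = t % D.length + 1 := by
        rw [← Int.emod_add_emod, Int.emod_eq_of_lt (by omega) h]
      have := h2 ((t % D.length).toNat + 1) (by simp only [List.length_cons]; omega)
      rw [e3, List.getD_eq_getElem _ _ (by omega), List.getD_eq_getElem _ _ (by omega)]
      simpa [show (t % D.length + 1).toNat = (t % D.length).toNat + 1 by omega] using this
    · have e3 : (t + 1) % D.length = 0 := by
        rw [← Int.emod_add_emod, show t % D.length + 1 = D.length by omega, Int.emod_self]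
      have := h2 0 (by simp only [List.length_cons]; omega)
      rw [e3, show (t % D.length).toNat = D.length - 1 by omega,
        List.getD_eq_getElem _ _ (by omega), List.getD_eq_getElem _ _ (by omega)]
      simpa [List.getLast_eq_getElem] using this
  have hlen : ∀ t, t + (dd t).length ≤ t + 1 + (dd (t + 1)).length := fun t => by
    have := (hR t).length_le
    rw [List.length_tail] at this; omega
  obtain ⟨Y, y1, y2, y3⟩ := exists_layer hw (P := fun t => (dd t).getD 0 0)
    (fun t => by rw [hper]) (fun t => t + (dd t).length) (fun t _ _ => by have := hne t; omega)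
    (fun t _ _ => hlen t) (by
      have := hlen (D.length - 1)
      rw [sub_add_cancel, ← zero_add (D.length : ℤ), hper] at this
      simpa [add_comm] using this)
  have key : ∀ (k : ℕ) t, k < (dd t).length → (dd t).getD k 0 = Y.P (t + k) := by
    intro k
    induction k with
    | zero => intro t _; simp [y2]
    | succ k ih =>
      intro t hk
      have a1 := hlen t
      rw [show t + (k + 1 : ℕ) = t + 1 + k by push_cast; ring, ← ih (t + 1) (by omega)]
      obtain ⟨q, hq⟩ := hR t
      rw [← hq, List.getD_append _ _ _ _ (by simp; omega)]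
      simp [List.getD_eq_getElem?_getD]
  refine ⟨Y, fun v => ?_⟩
  rw [dn_eq, y1, ← sum_Ico_list]
  refine Finset.sum_congr rfl (fun t ht => if_congr ?_ rfl rfl)
  obtain ⟨t1, t2⟩ := mem_Ico.1 ht
  have a1 : word Y.P t (t + (dd t).length) = dd t :=
    List.ext_getElem (by simp) (fun k _ hk => by
      rw [getElem_word, ← key k t hk, List.getD_eq_getElem _ _ hk])
  rw [y3 t t1 t2, a1]
  simp only [dd]
  rw [Int.emod_eq_of_lt t1 t2]

theorem exists_dec (S : List (List ℕ)) : ∃ M, Dec (down (subs S).toFinset (mm S)) M := by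
  obtain ⟨h1, h2, -⟩ := tours_spec S
  have key : ∀ Ts : List (List (List ℕ)), (∀ T ∈ Ts, Closd T ∧ ∀ e ∈ parcs T, IsArc e) →
      ∃ M, Dec (fun v => ((Ts.flatMap parcs).map
        (fun e => if e.2.length < e.1.length ∧ e.1 = v then 1 else 0)).sum) M := by
    intro Ts
    induction Ts with
    | nil => exact fun _ => ⟨0, fun v => rfl⟩
    | cons T Ts ih =>
      intro h
      obtain ⟨M, hM⟩ := ih (fun T hT => h T (List.mem_cons_of_mem _ hT))
      obtain ⟨⟨a, l, rfl, ha⟩, hT⟩ := h T List.mem_cons_self
      have e : ∀ v, ((parcs (a :: l)).map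
          (fun e => if e.2.length < e.1.length ∧ e.1 = v then 1 else 0)).sum =
          ((dts (a :: l)).map (fun d => if d = v then 1 else 0)).sum := by
        intro v
        unfold dts
        induction parcs (a :: l) with
        | nil => rfl
        | cons e L ih => by_cases h : e.2.length < e.1.length <;> simp [h, ih]
      by_cases h0 : dts (a :: l) = []
      · refine ⟨M, fun v => ?_⟩
        rw [hM v]
        simp only [List.flatMap_cons, List.map_append, List.sum_append, e, h0]
        simp
      · obtain ⟨c1, c2⟩ := chain_dts l a [] List.nil_prefix hT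
        have c3 := (chain_dts l a ((dts (a :: l)).getLast h0) (by
          rw [ha, ← List.cons_append, List.isChain_append] at c1
          exact c1.2.2 _ (by rw [List.getLast?_cons, List.getLast?_eq_some_getLast h0]; simp) a (by simp)) hT).1
        rw [← List.cons_append, List.isChain_append] at c3
        obtain ⟨Y, hY⟩ := layer_of_cycle h0 c2 c3.1
        refine ⟨Y ::ₘ M, fun v => ?_⟩
        rw [Multiset.map_cons, Multiset.sum_cons, hM v, hY v]
        simp only [List.flatMap_cons, List.map_append, List.sum_append, e]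
  obtain ⟨M, hM⟩ := key (tours S) (fun T hT => ⟨h1 T hT, fun e he =>
    isArc_of_mem (h2.subset (List.mem_flatMap.2 ⟨T, hT, he⟩))⟩)
  refine ⟨M, fun v => ?_⟩
  rw [hM v]
  beta_reduce
  rw [(h2.map _).sum_eq, sum_arcs, downB_eq]
  have hm := mdata S
  generalize (subs S).toFinset = Z at hm
  rw [Finset.sum_eq_single v]
  · by_cases hv : v = []
    · subst hv; simp [down, hm.supp [] hm.ne]
    · have := List.length_pos_iff.2 hv
      rw [if_neg (by simp), if_pos (by simp [this])]; simp
  · intro z _ hz
    simp [hz]
  · intro hv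
    simp [down, hm.supp v hv]

end Vale.Agent.P333
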