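import Vale.Agent.P333.Decomp

/-! From the multiplicity function to a normalized family; the lower-bound step. -/

namespace Vale.Agent.P333

open Finset Classical

/-- Properties of the multiplicity function. -/
structure MData (Z : Finset (List ℕ)) (m : List ℕ → ℕ) : Prop where
  ne : [] ∉ Z
  closed : ∀ z ∈ Z, ∀ y, y ≠ [] → y <:+: z → y ∈ Z
  supp : ∀ v, v ∉ Z → m v = 0
  left : ∀ v ∈ Z, ∑ z ∈ Z.filter (fun z => z.tail = v), m z ≤ m v
  right : ∀ v ∈ Z, ∑ z ∈ Z.filter (fun z => z.dropLast = v), m z ≤ m v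
  r2 : ∀ (P : ℤ → ℕ) (w n : ℕ), 0 < w → w < n → (∀ t, P (t + w) = P t) →
    Cl Z m P n < m (word P 0 n) →
    m (word P 0 n) - Cl Z m P n + Cl Z m P (n - w) + 1 ≤ m (word P 0 ((n - w : ℕ) : ℤ))

/-- Multiplicity of the descending arc leaving `v`. -/
noncomputable def down (Z : Finset (List ℕ)) (m : List ℕ → ℕ) (v : List ℕ) : ℕ :=
  m v - ∑ z ∈ Z.filter (fun z => z.dropLast = v), m z

/-- Multiplicity of the ascending arc entering `v`. -/
noncomputable def up (Z : Finset (List ℕ)) (m : List ℕ → ℕ) (v : List ℕ) : ℕ :=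
  m v - ∑ z ∈ Z.filter (fun z => z.tail = v), m z

section
variable {Z : Finset (List ℕ)} {m : List ℕ → ℕ} {M : Multiset Layer}

theorem MData.mem_of_pos (h : MData Z m) {v : List ℕ} (hv : 0 < m v) : v ∈ Z := by
  by_contra h1; rw [h.supp v h1] at hv; omega

theorem MData.mem_of_down (h : MData Z m) {v : List ℕ} (hv : 0 < down Z m v) : v ∈ Z :=
  h.mem_of_pos (by unfold down at hv; omega)

theorem MData.supp_layer (h : MData Z m) (hM : Dec (down Z m) M) {l : Layer} (hl : l ∈ M) :
    Supp Z l := by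
  intro X hX a b hab hb
  refine h.closed _ (h.mem_of_down ((dn_pos hX a).trans_le (hM.le hl _))) _ ?_
    (word_prefix _ hb).isInfix
  intro h1
  have := congrArg List.length h1
  simp at this; omega

theorem MData.mu_sum (h : MData Z m) (hM : Dec (down Z m) M) {v : List ℕ} (hv : v ≠ []) :
    (M.map (fun l => mu l v)).sum = m v := by
  obtain ⟨N, hN⟩ : ∃ N : ℕ, ∀ v ∈ Z, v.length ≤ N :=
    ⟨Z.sup List.length, fun v hv => Finset.le_sup hv⟩
  have key : ∀ k, ∀ v : List ℕ, v ≠ [] → N + 1 ≤ v.length + k →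
      (M.map (fun l => mu l v)).sum = m v := by
    intro k
    induction k with
    | zero =>
      intro v hv hk
      have h1 : v ∉ Z := fun h1 => by have := hN v h1; omega
      rw [h.supp v h1]
      refine Multiset.sum_eq_zero (fun x hx => ?_)
      obtain ⟨l, hl, rfl⟩ := Multiset.mem_map.1 hx
      by_contra h2
      obtain ⟨X, hX, h3, h4⟩ := exists_of_mu_pos (Nat.pos_of_ne_zero h2)
      exact h1 (h3 ▸ h.supp_layer hM hl X hX _ _ (by omega) h4)
    | succ k ih =>
      intro v hv hk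
      rw [Multiset.map_congr rfl (fun l hl => mu_right (h.supp_layer hM hl) hv),
        Multiset.sum_map_add, Multiset.sum_map_sum, hM v,
        Finset.sum_congr rfl (g := fun z => m z) (fun z hz => ?_)]
      · unfold down
        by_cases h1 : v ∈ Z
        · have := h.right v h1; omega
        · have : ∑ z ∈ Z.filter (fun z => z.dropLast = v), m z = 0 :=
            Finset.sum_eq_zero (fun z hz => absurd (h.closed z (mem_filter.1 hz).1 v hv
              ((mem_filter.1 hz).2 ▸ (List.dropLast_prefix z).isInfix)) h1)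
          rw [h.supp v h1, this]
      · have h1 := congrArg List.length (mem_filter.1 hz).2
        have h2 := List.length_pos_iff.2 hv
        rw [List.length_dropLast] at h1
        exact ih z (List.length_pos_iff.1 (by omega)) (by omega)
  exact key (N + 1) v hv (by omega)

theorem MData.mu_le (h : MData Z m) (hM : Dec (down Z m) M) {l : Layer} (hl : l ∈ M)
    {v : List ℕ} (hv : v ≠ []) : mu l v ≤ m v := by
  rw [← h.mu_sum hM hv]; exact Multiset.le_sum_of_mem (Multiset.mem_map_of_mem (fun l => mu l v) hl)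

theorem MData.upc_le (h : MData Z m) (hM : Dec (down Z m) M) {l : Layer} (hl : l ∈ M)
    {v : List ℕ} (hv : v ≠ []) : upc l v ≤ up Z m v := by
  have h1 := h.mu_sum hM hv
  rw [Multiset.map_congr rfl (fun l hl => mu_left (h.supp_layer hM hl) hv),
    Multiset.sum_map_add, Multiset.sum_map_sum,
    Finset.sum_congr rfl (g := fun z => m z) (fun z hz => h.mu_sum hM (by
      rintro rfl; exact h.ne (mem_filter.1 hz).1))] at h1
  have h2 := Multiset.le_sum_of_mem (Multiset.mem_map_of_mem (fun l => upc l v) hl)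
  unfold up; omega

theorem MData.cl_sum (h : MData Z m) (hM : Dec (down Z m) M) (P : ℤ → ℕ) {n : ℕ} (hn : 0 < n) :
    m (word P 0 n) = (M.map (fun l => opn l P n)).sum + Cl Z m P n := by
  rw [← h.mu_sum hM (List.length_pos_iff.1 (by simpa using hn)),
    Multiset.map_congr rfl (fun l hl => mu_open (h.supp_layer hM hl) P n), Multiset.sum_map_add]
  congr 1
  unfold Cl
  rw [Multiset.sum_map_sum]
  refine Finset.sum_congr rfl (fun z hz => ?_)
  rw [Multiset.sum_map_mul_right, h.mu_sum hM (by rintro rfl; exact h.ne hz)]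

theorem MData.exists_fam (h : MData Z m) (h0 : ∃ M, Dec (down Z m) M) :
    ∃ M, Dec (down Z m) M ∧ Fam {l | l ∈ M} := by
  obtain ⟨M, hM, hp, hc⟩ := exists_normal (fun v hv => h.mem_of_down hv) h0
  have row0 : ∀ l ∈ M, ∀ Y, Mem l Y → Y.w < Y.r 0 →
      ∃ l' ∈ M, ∃ X a b, Mem l' X ∧ Reg Y X a b ∧ Cov Y X a b 0 := by
    intro l hl Y hY hw
    have hw0 := Y.w_pos
    have e1 := h.cl_sum hM Y.P (n := (Y.r 0).toNat) (by omega)
    have e2 := h.cl_sum hM Y.P (n := (Y.r 0).toNat - Y.w.toNat) (by omega)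
    have opn1 : ∀ X : Layer, X.P = Y.P → Y.r 0 ≤ X.r 0 → Open X Y.P ((Y.r 0).toNat : ℕ) :=
      fun X h1 h2 => ⟨by omega, 0, X.r 0, le_rfl, by omega, fun t _ _ => by rw [h1],
        X.mono (by omega)⟩
    have e3 : 1 ≤ (M.map (fun l => opn l Y.P ((Y.r 0).toNat : ℕ))).sum := by
      refine le_trans ?_ (Multiset.le_sum_of_mem
        (Multiset.mem_map_of_mem (fun l => opn l Y.P ((Y.r 0).toNat : ℕ)) hl))
      refine le_trans ?_ (le_psum _ hY)
      rw [if_pos (opn1 Y rfl le_rfl)]
    have e4 := h.r2 Y.P Y.w.toNat (Y.r 0).toNat (by omega) (by omega)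
      (by rw [Int.toNat_of_nonneg hw0.le]; exact Y.per) (by omega)
    by_contra hno
    have e5 : (M.map (fun l => opn l Y.P (((Y.r 0).toNat - Y.w.toNat : ℕ) : ℤ))).sum ≤
        (M.map (fun l => opn l Y.P ((Y.r 0).toNat : ℕ))).sum := by
      refine Multiset.sum_map_le_sum_map _ _ (fun l' hl' => psum_le (fun X hX => ?_))
      by_cases ho : Open X Y.P (((Y.r 0).toNat - Y.w.toNat : ℕ) : ℤ)
      · rw [if_pos ho, if_pos]
        obtain ⟨o1, a, b, o2, o3, o4, o5⟩ := ho
        by_contra ho2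
        refine hno ⟨l', hl', X, a, b, hX, ⟨o4, o5, ?_⟩, o2, by omega, by omega⟩
        by_cases hP : X.P = Y.P
        · refine Or.inr ⟨hP, ?_, fun hr => ho2 (opn1 X hP (by rw [hr]))⟩
          rcases (hc l' hl' l hl X Y hX hY hP).2 with h1 | h1
          · exact h1
          · exact absurd (opn1 X hP (h1 0)) ho2
        · exact Or.inl hP
      · rw [if_neg ho]; exact Nat.zero_le _
    omega
  refine ⟨M, hM, fun l hl Y X hY hX hP => by rw [same_of_prim (hp l hl) hY hX hP], hc, ?_, ?_⟩
  · refine ⟨(M.map Layer.w).sum, fun l hl => ?_⟩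
    obtain ⟨R, rfl⟩ := Multiset.exists_cons_of_mem hl
    have : 0 ≤ (R.map Layer.w).sum := Multiset.sum_nonneg (fun x hx => by
      obtain ⟨l, -, rfl⟩ := Multiset.mem_map.1 hx
      exact l.w_pos.le)
    simp only [Multiset.map_cons, Multiset.sum_cons]; omega
  · intro l hl Y hY hlong i
    obtain ⟨l', hl', X, a, b, hX, ⟨r1, r2, r3⟩, c1, c2, c3⟩ := row0 l hl (Y.sh i) (hY.sh i) (by
      have := hlong (i + 1)
      simp only [Layer.sh, zero_add, add_sub_cancel_right] at this ⊢; omega)
    simp only [Layer.sh, zero_add] at c2 c3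
    refine ⟨l', hl', X.sh (-i), a + i, b + i, hX.sh _, ⟨fun t t1 t2 => ?_, ?_, ?_⟩, by omega,
      by omega, by simp only [Layer.sh, add_neg_cancel]; omega⟩
    · have := r1 (t + -i) (by omega) (by omega)
      simpa [Layer.sh] using this
    · simp only [Layer.sh]; rw [show a + i - 1 + -i = a - 1 by ring]; omega
    · have back : X = (X.sh (-i)).sh i := by rw [X.sh_sh, add_neg_cancel, X.sh_zero]
      rcases r3 with r3 | ⟨r3, r4, r5⟩
      · refine Or.inl (fun hP => r3 ?_)
        rw [back]; funext t; exact congrFun hP (t + i)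
      · refine Or.inr ⟨funext fun t => ?_, fun t => ?_, fun hr => r5 ?_⟩
        · have := congrFun r3 (t + -i)
          simpa [Layer.sh] using this
        · have := r4 (t + -i)
          simp only [Layer.sh, neg_add_cancel_right] at this ⊢; omega
        · rw [back]; funext t
          have := congrFun hr (t + i)
          show (X.sh (-i)).r (t + i) - i = Y.r (t + i) - i
          rw [this]

theorem MData.visit_iff (h : MData Z m) (hM : Dec (down Z m) M) {l : Layer} (hl : l ∈ M)
    (C : List ℕ → Prop) (hu : ∀ v, 0 < up Z m v → (C v.dropLast ↔ C v))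
    (hd : ∀ v, 0 < down Z m v → (C v ↔ C v.tail)) {y : List ℕ} (hy : l.visits y) :
    C y ↔ C (word l.P 0 (l.r 0)) := by
  have row : ∀ a, ∀ k : ℕ, ∀ b, l.r (a - 1) ≤ b → b + k = l.r a →
      (C (word l.P a b) ↔ C (word l.P a (l.r a))) := by
    intro a k
    induction k with
    | zero => intro b _ h2; rw [show b = l.r a by omega]
    | succ k ih =>
      intro b h1 h2
      have h3 := l.lt (a - 1)
      rw [← ih (b + 1) (by omega) (by omega), ← hu _ ((upc_pos (Mem.refl l) (a := a) (b := b + 1)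
        (by omega) (by omega)).trans_le (h.upc_le hM hl
          (List.length_pos_iff.1 (by simp; omega)))), dropLast_word, add_sub_cancel_right]
  have nxt : ∀ a, C (word l.P a (l.r a)) ↔ C (word l.P (a + 1) (l.r (a + 1))) := by
    intro a
    have := l.step a
    rw [hd _ ((dn_pos (Mem.refl l) a).trans_le (hM.le hl _)), tail_word,
      row (a + 1) (l.r (a + 1) - l.r a).toNat _ (by simp) (by omega)]
  obtain ⟨a, b, h1, h2, rfl⟩ := hy
  rw [row a (l.r a - b).toNat b h1 (by omega)]
  clear h1 h2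
  induction a using Int.induction_on with
  | zero => rfl
  | succ k ih => exact (nxt k).symm.trans ih
  | pred k ih => rw [nxt, sub_add_cancel]; exact ih

theorem MData.visit_mem (h : MData Z m) (hM : Dec (down Z m) M) {l : Layer} (hl : l ∈ M)
    {y : List ℕ} (hy : l.visits y) : y = [] ∨ y ∈ Z := by
  obtain ⟨a, b, -, h2, rfl⟩ := hy
  by_cases h3 : a < b
  · exact Or.inr (h.supp_layer hM hl l (Mem.refl l) a b h3 h2)
  · exact Or.inl (word_nil _ (by omega))

theorem MData.exists_visit (h : MData Z m) (hM : Dec (down Z m) M) {s : List ℕ} (hs : 0 < m s)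
    (hmax : ∀ z ∈ Z, s <:+: z → z.length ≤ s.length) : ∃ l ∈ M, l.visits s := by
  have hne : s ≠ [] := by rintro rfl; exact h.ne (h.mem_of_pos hs)
  rw [← h.mu_sum hM hne] at hs
  obtain ⟨l, hl, h1⟩ : ∃ l ∈ M, 0 < mu l s := by
    by_contra h1
    push Not at h1
    rw [Multiset.sum_eq_zero (fun x hx => by
      obtain ⟨l, hl, rfl⟩ := Multiset.mem_map.1 hx
      exact Nat.le_zero.1 (h1 l hl))] at hs
    omega
  obtain ⟨X, hX, h2, h3⟩ := exists_of_mu_pos h1
  refine ⟨l, hl, h2 ▸ hX.visits ?_ h3⟩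
  by_contra h4
  have h5 := hmax _ (h.supp_layer hM hl X hX (0 - 1) s.length (by omega) (by omega))
    (by rw [← h2]; simpa using word_infix X.P (by omega) le_rfl)
  simp only [length_word] at h5
  omega

end

theorem card_succ_le {A : Type} [LinearOrder A] {s t : Finset A} (f : A → A) (hf : ∀ a, a < f a)
    (h1 : s ⊆ t) (h2 : ∀ a ∈ s, f a ∈ t) (h3 : s.Nonempty) : s.card + 1 ≤ t.card := by
  have h4 : f (s.max' h3) ∉ s := fun h => absurd (s.le_max' _ h) (not_le.2 (hf _))
  rw [← Finset.card_insert_of_notMem h4]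
  exact Finset.card_le_card (Finset.insert_subset (h2 _ (s.max'_mem h3)) h1)

theorem ncl_zero {P : ℤ → ℕ} {n : ℕ} {z : List ℕ} (h : z.length ≤ n) : ncl P n z = 0 :=
  Finset.card_eq_zero.2 (Finset.filter_eq_empty_iff.2 (fun p _ hp => by
    have := hp.2.1; omega))

theorem ncl_step {P : ℤ → ℕ} {w n : ℕ} (hw : 0 < w) (hn : w < n) (hP : ∀ t, P (t + w) = P t)
    (z : List ℕ) : ncl P n z ≤ ncl P (n - w) z ∧ (0 < ncl P n z → ncl P n z + 1 ≤ ncl P (n - w) z) := by
  have h1 : (range z.length).filter (CO P n z) ⊆ (range z.length).filter (CO P (n - w) z) := by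
    intro p hp
    obtain ⟨p1, p2, p3, p4⟩ := mem_filter.1 hp
    exact mem_filter.2 ⟨p1, p2, by omega, p4⟩
  refine ⟨Finset.card_le_card h1, fun h => card_succ_le (fun p => p + w) (fun p => by omega) h1
    (fun p hp => ?_) (Finset.card_pos.1 h)⟩
  obtain ⟨p1, p2, p3, p4⟩ := mem_filter.1 hp
  refine mem_filter.2 ⟨mem_range.2 (by omega), by omega, by omega, fun k hk => ?_⟩
  rw [← p4 k hk, ← hP]
  push_cast
  rw [show (k : ℤ) - (p + w) + w = k - p by ring]

theorem r2_lb {Y : Layer} (hfin : ∀ t, 0 ≤ t → t < Y.w → Y.r t ≤ Y.w) {Z Z' : Finset (List ℕ)}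
    (hZ' : Supp Z' Y) (hZ : Z ⊆ Z') {f : List ℕ → ℕ} {P : ℤ → ℕ} {w n : ℕ} (hw : 0 < w)
    (hn : w < n) (hP : ∀ t, P (t + w) = P t) (hf : ∀ z, n - w < z.length → f z ≤ mu Y z)
    (hv : Cl Z f P n < f (word P 0 n)) :
    f (word P 0 n) - Cl Z f P n + Cl Z f P (n - w) + 1 ≤ mu Y (word P 0 ((n - w : ℕ) : ℤ)) := by
  let f' : List ℕ → ℕ := fun z => if z ∈ Z ∧ n - w < z.length then f z else 0
  have e1 : ∀ k, n - w ≤ k → Cl Z' (mu Y) P k = Cl Z f P k + Cl Z' (fun z => mu Y z - f' z) P k := by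
    intro k hk
    have e2 : Cl Z f P k = Cl Z' f' P k := by
      unfold Cl
      rw [← Finset.sum_subset hZ (fun z _ hz => by simp [f', hz])]
      refine Finset.sum_congr rfl (fun z hz => ?_)
      by_cases h : n - w < z.length
      · simp [f', hz, h]
      · rw [ncl_zero (by omega)]; simp
    rw [e2]
    unfold Cl
    rw [← Finset.sum_add_distrib]
    refine Finset.sum_congr rfl (fun z _ => ?_)
    rw [← add_mul]
    congr 1
    have : f' z ≤ mu Y z := by
      simp only [f']
      split_ifs with h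
      · exact hf z h.2
      · omega
    beta_reduce; omega
  have a1 := mu_open hZ' P n
  have a2 := mu_open hZ' P (n - w)
  rw [e1 n (by omega)] at a1
  rw [e1 (n - w) le_rfl] at a2
  have a3 := hf (word P 0 n) (by simp; omega)
  generalize (fun z => mu Y z - f' z) = g at a1 a2
  have a4 : Cl Z' g P n ≤ Cl Z' g P (n - w) :=
    Finset.sum_le_sum (fun z _ => Nat.mul_le_mul_left _ (ncl_step hw hn hP z).1)
  have b1 : (Ico 0 Y.w).filter (fun t => Open (Y.sh t) P n) ⊆
      (Ico 0 Y.w).filter (fun t => Open (Y.sh t) P ((n - w : ℕ) : ℤ)) := by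
    intro t ht
    obtain ⟨t1, o1, a, b, o2, o3, o4, o5⟩ := mem_filter.1 ht
    exact mem_filter.2 ⟨t1, by omega, a, b, o2, by omega, o4, o5⟩
  have b2 : ∀ k : ℤ, opn Y P k = ((Ico 0 Y.w).filter (fun t => Open (Y.sh t) P k)).card :=
    fun k => by rw [Finset.card_filter]; rfl
  by_cases ho : 0 < opn Y P n
  · have b3 := card_succ_le (fun t => t + (w : ℤ)) (fun t => by omega) b1 (fun t ht => by
      obtain ⟨t1, o1, a, b, o2, o3, o4, o5⟩ := mem_filter.1 ht
      obtain ⟨t2, t3⟩ := mem_Ico.1 t1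
      have c1 := hfin t t2 t3
      have c2 := Y.mono (show t ≤ t + w by omega)
      simp only [Layer.sh, zero_add] at o1 o5
      refine mem_filter.2 ⟨mem_Ico.2 ⟨by omega, by omega⟩, by simp only [Layer.sh, zero_add]; omega,
        a - w, b - w, by omega, by omega, fun s s1 s2 => ?_, ?_⟩
      · have := o4 (s + w) (by omega) (by omega)
        rw [hP] at this
        rw [← this]; simp only [Layer.sh]; congr 1; ring
      · simp only [Layer.sh]
        rw [show a - w - 1 + (t + w) = a - 1 + t by ring]; omega)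
      (Finset.card_pos.1 (by rwa [← b2]))
    rw [← b2, ← b2] at b3
    omega
  · have c1 : 0 < Cl Z' g P n := by omega
    obtain ⟨z, hz, c2⟩ : ∃ z ∈ Z', 0 < g z * ncl P n z := by
      by_contra h
      push Not at h
      rw [Cl, Finset.sum_eq_zero (fun z hz => Nat.le_zero.1 (h z hz))] at c1
      omega
    have c3 : Cl Z' g P n < Cl Z' g P (n - w) :=
      Finset.sum_lt_sum (fun z _ => Nat.mul_le_mul_left _ (ncl_step hw hn hP z).1)
        ⟨z, hz, Nat.mul_lt_mul_of_pos_left
          ((ncl_step hw hn hP z).2 (Nat.pos_of_mul_pos_left c2)) (Nat.pos_of_mul_pos_right c2)⟩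
    omega

end Vale.Agent.P333
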