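import Vale.Agent.P333.Euler

/-! Merging closed walks greedily and spelling the final superstring. -/

namespace Vale.Agent.P333

open Vale.Agent.Lib.PolyTime Finset

/-- Rotate a cyclic walk so that it starts at `y`. -/
def rot (T : List (List ℕ)) (y : List ℕ) : List (List ℕ) :=
  T.dropWhile (fun x => decide (x ≠ y)) ++ T.takeWhile (fun x => decide (x ≠ y))

/-- Two walks share a vertex. -/
def meets (t T : List (List ℕ)) : Bool := t.any (fun x => decide (x ∈ T))

/-- Splice the walk `T` into `acc` at a vertex of `t`. -/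
def merge (t acc T : List (List ℕ)) : List (List ℕ) :=
  rot T (t.filter (fun x => decide (x ∈ T))).headI ++
    rot acc (t.filter (fun x => decide (x ∈ T))).headI

/-- Add a cyclic walk, merging it with all walks that it meets. -/
def ins (t : List (List ℕ)) (Ts : List (List (List ℕ))) : List (List (List ℕ)) :=
  (Ts.filter (fun T => meets t T)).foldl (merge t) t :: Ts.filter (fun T => !meets t T)

/-- Budget released by the unconnected walks that `t` meets. -/
def bud (S : List (List ℕ)) (Ts : List (List (List ℕ))) (t : List (List ℕ)) : ℕ :=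
  (((subs S).filter (fun v => Ts.any (fun T => decide ([] ∉ T ∧ v ∈ T ∧ meets t T = true)))).map
    (downB S)).sum

/-- Affordable connecting walks. -/
def good (S : List (List ℕ)) (Ts : List (List (List ℕ))) : List (List (List ℕ)) :=
  ([] :: subs S).flatMap (fun y0 => ([] :: subs S).flatMap (fun y1 =>
    ([] :: subs S).flatMap (fun y2 => (([] :: subs S).filter (fun y3 =>
      Ts.any (fun T => decide ([] ∈ T ∧ y0 ∈ T)) && Ts.any (fun T => decide ([] ∉ T ∧ y1 ∈ T)) &&
      decide (dist y0 y1 + dist y1 y2 + dist y2 y3 + dist y3 y0 ≤ bud S Ts [y0, y1, y2, y3]))).map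
        (fun y3 => [y0, y1, y2, y3]))))

/-- One greedy step. -/
def gstep (S : List (List ℕ)) (Ts : List (List (List ℕ))) : List (List (List ℕ)) :=
  if good S Ts = [] then Ts else ins (good S Ts).headI Ts

/-- The components. -/
def comps (S : List (List ℕ)) : List (List (List ℕ)) := (tours S).foldl (fun Ts t => ins t Ts) []

/-- The walks after the greedy phase. -/
def final (S : List (List ℕ)) : List (List (List ℕ)) :=
  (comps S).foldl (fun Ts _ => gstep S Ts) (comps S)

/-- The string spelled by a walk. -/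
def spell (l : List (List ℕ)) : List ℕ := l.foldl (fun s b => s ++ b.drop (ov s b)) []

/-- The output of the algorithm. -/
def superstr (S : List (List ℕ)) : List ℕ :=
  spell (rot ((final S).filter (fun T => decide ([] ∈ T))).headI [])

/-- Cost of a walk from `a`. -/
def pc : List ℕ → List (List ℕ) → ℕ
  | _, [] => 0
  | a, b :: l => dist a b + pc b l

/-- Cost of a cyclic walk. -/
def cyc : List (List ℕ) → ℕ
  | [] => 0
  | a :: l => pc a (l ++ [a])

theorem headI_mem {A : Type} [Inhabited A] {l : List A} (h : l ≠ []) : l.headI ∈ l := by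
  cases l with
  | nil => exact absurd rfl h
  | cons a l => simp

theorem pc_append (a b : List ℕ) (l k : List (List ℕ)) :
    pc a (l ++ b :: k) = pc a (l ++ [b]) + pc b k := by
  induction l generalizing a with
  | nil => simp [pc]
  | cons c l ih => simp only [List.cons_append, pc, ih]; omega

theorem pc_le_append (a : List ℕ) (l k : List (List ℕ)) : pc a l ≤ pc a (l ++ k) := by
  induction l generalizing a with
  | nil => simp [pc]
  | cons c l ih => have := ih c; simp only [List.cons_append, pc]; omega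

theorem cyc_rotate (y : List ℕ) (l k : List (List ℕ)) : cyc (l ++ y :: k) = cyc (y :: (k ++ l)) := by
  cases l with
  | nil => simp
  | cons a l =>
    simp only [List.cons_append, cyc, List.append_assoc]
    rw [pc_append a y l (k ++ [a]), pc_append y a k (l ++ [y])]; omega

theorem rot_spec {T : List (List ℕ)} {y : List ℕ} (h : y ∈ T) :
    ∃ l k, T = l ++ y :: k ∧ rot T y = y :: (k ++ l) := by
  have e1 := List.takeWhile_append_dropWhile (p := fun x => decide (x ≠ y)) (l := T)
  have h0 : T.dropWhile (fun x => decide (x ≠ y)) ≠ [] := by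
    intro h0
    simpa using List.dropWhile_eq_nil_iff.1 h0 y h
  have e2 := List.head_dropWhile_not (fun x : List ℕ => decide (x ≠ y)) h0
  obtain ⟨e, r, hr⟩ := List.exists_cons_of_ne_nil h0
  simp only [hr, List.head_cons, decide_eq_false_iff_not, not_not] at e2
  subst e2
  refine ⟨_, r, by rw [← hr, e1], by rw [rot, hr]; rfl⟩

theorem rot_perm (T : List (List ℕ)) (y : List ℕ) : (rot T y).Perm T := by
  unfold rot
  conv_rhs => rw [← List.takeWhile_append_dropWhile (p := fun x => decide (x ≠ y)) (l := T)]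
  exact List.perm_append_comm

theorem merge_perm (t acc T : List (List ℕ)) : (merge t acc T).Perm (acc ++ T) :=
  ((rot_perm _ _).append (rot_perm _ _)).trans List.perm_append_comm

theorem meets_iff {t T : List (List ℕ)} : meets t T = true ↔ ∃ x ∈ t, x ∈ T := by simp [meets]

theorem merge_cyc {t acc T : List (List ℕ)} (h1 : t ⊆ acc) (h2 : meets t T = true) :
    cyc (merge t acc T) = cyc acc + cyc T := by
  obtain ⟨x, x1, x2⟩ := meets_iff.1 h2
  have h3 : (t.filter (fun x => decide (x ∈ T))).headI ∈ t.filter (fun x => decide (x ∈ T)) :=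
    headI_mem (List.ne_nil_of_mem (a := x) (by simp [x1, x2]))
  unfold merge
  generalize (t.filter (fun x => decide (x ∈ T))).headI = y at h3
  simp only [List.mem_filter, decide_eq_true_eq] at h3
  obtain ⟨l, k, rfl, e1⟩ := rot_spec (h1 h3.1)
  obtain ⟨l', k', rfl, e2⟩ := rot_spec h3.2
  rw [e1, e2, cyc_rotate y l k, cyc_rotate y l' k', List.cons_append, cyc, cyc, cyc,
    List.append_assoc, List.cons_append, pc_append]; omega

theorem fold_merge (t : List (List ℕ)) (H : List (List (List ℕ))) : ∀ acc,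
    (H.foldl (merge t) acc).Perm (acc ++ H.flatten) ∧ (t ⊆ acc → (∀ T ∈ H, meets t T = true) →
      cyc (H.foldl (merge t) acc) = cyc acc + (H.map cyc).sum) := by
  induction H with
  | nil => simp
  | cons T H ih =>
    intro acc
    obtain ⟨h1, h2⟩ := ih (merge t acc T)
    refine ⟨h1.trans (by
      rw [List.flatten_cons, ← List.append_assoc]; exact (merge_perm t acc T).append_right _),
      fun a b => ?_⟩
    rw [List.foldl_cons, h2 (fun x hx => (merge_perm t acc T).mem_iff.2
      (List.mem_append_left _ (a hx))) (fun T' h => b T' (List.mem_cons_of_mem _ h)),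
      merge_cyc a (b T List.mem_cons_self), List.map_cons, List.sum_cons, add_assoc]

theorem ins_spec (t : List (List ℕ)) (Ts : List (List (List ℕ))) : ∃ H,
    ins t Ts = H :: Ts.filter (fun T => !meets t T) ∧
    (∀ x, x ∈ H ↔ x ∈ t ∨ ∃ T ∈ Ts, meets t T = true ∧ x ∈ T) ∧
    ((ins t Ts).map cyc).sum = cyc t + (Ts.map cyc).sum := by
  obtain ⟨h1, h2⟩ := fold_merge t (Ts.filter (fun T => meets t T)) t
  refine ⟨_, rfl, fun x => by rw [h1.mem_iff]; simp [and_assoc], ?_⟩
  rw [ins, List.map_cons, List.sum_cons, h2 (List.Subset.refl _) (fun T hT => (List.mem_filter.1 hT).2),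
    ← ((List.filter_append_perm (fun T => meets t T) Ts).map cyc).sum_eq, List.map_append,
    List.sum_append, add_assoc]

/-- Distinct walks are vertex-disjoint. -/
def Disj (Ts : List (List (List ℕ))) : Prop := ∀ T ∈ Ts, ∀ T' ∈ Ts, ∀ x, x ∈ T → x ∈ T' → T = T'

theorem Disj.ins {Ts : List (List (List ℕ))} (h : Disj Ts) (t : List (List ℕ)) :
    Disj (ins t Ts) := by
  obtain ⟨H, e, hH, -⟩ := ins_spec t Ts
  have key : ∀ T ∈ Ts.filter (fun T => !meets t T), ∀ x, x ∈ H → x ∉ T := by
    intro T hT x h1 h2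
    simp only [List.mem_filter, Bool.not_eq_true', Bool.eq_false_iff] at hT
    rcases (hH x).1 h1 with h3 | ⟨T', t1, t2, t3⟩
    · exact hT.2 (meets_iff.2 ⟨x, h3, h2⟩)
    · exact hT.2 (h T' t1 T hT.1 x t3 h2 ▸ t2)
  rw [e]
  intro T hT T' hT' x h1 h2
  rcases List.mem_cons.1 hT with g | g <;> rcases List.mem_cons.1 hT' with g' | g'
  · rw [g, g']
  · exact absurd h2 (key _ g' x (g ▸ h1))
  · exact absurd h1 (key _ g x (g' ▸ h2))
  · exact h T (List.mem_filter.1 g).1 T' (List.mem_filter.1 g').1 x h1 h2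

theorem ins_sup {Ts : List (List (List ℕ))} (t : List (List ℕ)) {T : List (List ℕ)}
    (h : T = t ∨ T ∈ Ts) : ∃ T' ∈ ins t Ts, T ⊆ T' := by
  obtain ⟨H, e, hH, -⟩ := ins_spec t Ts
  rw [e]
  rcases h with rfl | h
  · exact ⟨H, List.mem_cons_self, fun x hx => (hH x).2 (Or.inl hx)⟩
  · by_cases h1 : meets t T = true
    · exact ⟨H, List.mem_cons_self, fun x hx => (hH x).2 (Or.inr ⟨T, h, h1, hx⟩)⟩
    · exact ⟨T, List.mem_cons_of_mem _ (by simp [h, h1]), List.Subset.refl _⟩

theorem pc_le (l : List (List ℕ)) : ∀ a : List ℕ, (∀ e ∈ parcs (a :: l), IsArc e) →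
    pc a l + a.length ≤ (l.getLastD a).length +
      ((parcs (a :: l)).map (fun e => if e.2.length < e.1.length then 1 else 0)).sum := by
  induction l with
  | nil => intro a _; simp [pc]
  | cons b l ih =>
    intro a ha
    have h1 := ih b (fun e he => ha e (List.mem_cons_of_mem _ he))
    simp only [pc, parcs, List.getLastD_cons, List.map_cons, List.sum_cons]
    rcases ha (a, b) List.mem_cons_self with ⟨h2, h3⟩ | ⟨h2, h3⟩
    · simp only at h2 h3
      have := List.length_pos_iff.2 h2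
      have h4 := dist_dropLast b
      have h5 : a.length = b.length - 1 := by rw [h3]; simp
      rw [← h3] at h4
      omega
    · simp only at h2 h3
      have := List.length_pos_iff.2 h2
      have h4 := dist_tail a
      have h5 : b.length = a.length - 1 := by rw [h3]; simp
      rw [← h3] at h4
      rw [if_pos (by omega)]
      omega

theorem pc_concat (a b : List ℕ) (l : List (List ℕ)) :
    pc a (l ++ [b]) = pc a l + dist (l.getLastD a) b := by
  induction l generalizing a with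
  | nil => simp [pc]
  | cons c l ih => simp only [List.cons_append, pc, ih, List.getLastD_cons]; omega

theorem tours_cost (S : List (List ℕ)) :
    ((tours S).map cyc).sum ≤ ∑ v ∈ (subs S).toFinset, downB S v := by
  obtain ⟨h1, h2, -⟩ := tours_spec S
  have key : ∀ Ts : List (List (List ℕ)), (∀ T ∈ Ts, Closd T ∧ ∀ e ∈ parcs T, IsArc e) →
      (Ts.map cyc).sum ≤ ((Ts.flatMap parcs).map
        (fun e => if e.2.length < e.1.length then 1 else 0)).sum := by
    intro Ts
    induction Ts with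
    | nil => simp
    | cons T Ts ih =>
      intro h
      have h3 := ih (fun T hT => h T (List.mem_cons_of_mem _ hT))
      obtain ⟨⟨a, l, rfl, ha⟩, hT⟩ := h T List.mem_cons_self
      have h4 := pc_le l a hT
      simp only [List.map_cons, List.sum_cons, List.flatMap_cons, List.map_append, List.sum_append,
        cyc, pc_concat, ha, dist_self] at h4 ⊢
      omega
  refine (key (tours S) (fun T hT => ⟨h1 T hT, fun e he =>
    isArc_of_mem (h2.subset (List.mem_flatMap.2 ⟨T, hT, he⟩))⟩)).trans ?_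
  rw [(h2.map _).sum_eq, sum_arcs]
  refine Finset.sum_le_sum (fun v _ => ?_)
  rw [if_neg (by simp)]
  split_ifs <;> simp

open Classical in
/-- Invariant of the greedy phase. -/
structure GInv (S : List (List ℕ)) (Ts : List (List (List ℕ))) : Prop where
  disj : Disj Ts
  arc : ∀ e ∈ arcs S, ∃ T ∈ Ts, e.1 ∈ T ∧ e.2 ∈ T
  nil : ∃ T ∈ Ts, [] ∈ T
  pot : (Ts.map cyc).sum + ∑ v ∈ (subs S).toFinset.filter (fun v => ¬ ∃ T ∈ Ts, [] ∈ T ∧ v ∈ T),
    downB S v ≤ 2 * ∑ v ∈ (subs S).toFinset, downB S v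

theorem ginv_comps (S : List (List ℕ)) : GInv S (comps S) := by
  classical
  have key : ∀ (L Ts : List (List (List ℕ))), Disj Ts →
      Disj (L.foldl (fun Ts t => ins t Ts) Ts) ∧
      (∀ T, T ∈ L ∨ T ∈ Ts → ∃ T' ∈ L.foldl (fun Ts t => ins t Ts) Ts, T ⊆ T') ∧
      ((L.foldl (fun Ts t => ins t Ts) Ts).map cyc).sum = (L.map cyc).sum + (Ts.map cyc).sum := by
    intro L
    induction L with
    | nil => exact fun Ts h => ⟨h, fun T hT => ⟨T, by simpa using hT, List.Subset.refl _⟩, by simp⟩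
    | cons t L ih =>
      intro Ts h
      obtain ⟨h1, h2, h3⟩ := ih (ins t Ts) (h.ins t)
      refine ⟨h1, fun T hT => ?_, ?_⟩
      · by_cases h4 : T ∈ L
        · exact h2 T (Or.inl h4)
        · obtain ⟨T1, a1, a2⟩ := ins_sup (Ts := Ts) t (T := T) (by simpa [h4] using hT)
          obtain ⟨T2, b1, b2⟩ := h2 T1 (Or.inr a1)
          exact ⟨T2, b1, List.Subset.trans a2 b2⟩
      · rw [List.foldl_cons, h3, (ins_spec t Ts).choose_spec.2.2, List.map_cons, List.sum_cons]
        omega
  obtain ⟨h1, h2, h3⟩ := key (tours S) [] (fun T hT => by simp at hT)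
  obtain ⟨-, t2, T0, t3, t4⟩ := tours_spec S
  refine ⟨h1, fun e he => ?_, ?_, ?_⟩
  · obtain ⟨T, a1, a2⟩ := List.mem_flatMap.1 (t2.symm.subset he)
    obtain ⟨T', b1, b2⟩ := h2 T (Or.inl a1)
    exact ⟨T', b1, b2 (mem_of_parcs a2).1, b2 (mem_of_parcs a2).2⟩
  · obtain ⟨T', b1, b2⟩ := h2 T0 (Or.inl t3)
    exact ⟨T', b1, b2 t4⟩
  · have a1 := tours_cost S
    have a2 := Finset.sum_le_sum_of_subset (f := downB S) (Finset.filter_subset
      (fun v => ¬ ∃ T ∈ comps S, [] ∈ T ∧ v ∈ T) (subs S).toFinset)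
    rw [comps, h3]
    simp only [List.map_nil, List.sum_nil]
    unfold comps at a2
    omega

open Classical in
theorem bud_eq (S : List (List ℕ)) (Ts : List (List (List ℕ))) (t : List (List ℕ)) :
    bud S Ts t = ∑ v ∈ (subs S).toFinset.filter
      (fun v => ∃ T ∈ Ts, [] ∉ T ∧ v ∈ T ∧ meets t T = true), downB S v := by
  rw [← sum_filter_eq (nodup_subs S), bud]
  congr 3
  funext v
  rw [Bool.eq_iff_iff]; simp

theorem mem_good {S : List (List ℕ)} {Ts : List (List (List ℕ))} {t : List (List ℕ)} :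
    t ∈ good S Ts ↔ ∃ y0 ∈ [] :: subs S, ∃ y1 ∈ [] :: subs S, ∃ y2 ∈ [] :: subs S,
      ∃ y3 ∈ [] :: subs S, (∃ T ∈ Ts, [] ∈ T ∧ y0 ∈ T) ∧ (∃ T ∈ Ts, [] ∉ T ∧ y1 ∈ T) ∧
      dist y0 y1 + dist y1 y2 + dist y2 y3 + dist y3 y0 ≤ bud S Ts [y0, y1, y2, y3] ∧
      [y0, y1, y2, y3] = t := by
  simp only [good, List.mem_flatMap, List.mem_map, List.mem_filter, Bool.and_eq_true,
    List.any_eq_true, decide_eq_true_eq, and_assoc]

theorem GInv.ins {S : List (List ℕ)} {Ts : List (List (List ℕ))} (h : GInv S Ts)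
    {t : List (List ℕ)} (ht : t ∈ good S Ts) :
    GInv S (ins t Ts) ∧ (ins t Ts).length < Ts.length := by
  classical
  obtain ⟨y0, -, y1, -, y2, -, y3, -, ⟨T0, a1, a2, a3⟩, ⟨T1, b1, b2, b3⟩, hc, rfl⟩ := mem_good.1 ht
  obtain ⟨H, e, hH, hs⟩ := ins_spec [y0, y1, y2, y3] Ts
  have m0 : meets [y0, y1, y2, y3] T0 = true := meets_iff.2 ⟨y0, by simp, a3⟩
  have m1 : meets [y0, y1, y2, y3] T1 = true := meets_iff.2 ⟨y1, by simp, b3⟩
  have hcy : cyc [y0, y1, y2, y3] = dist y0 y1 + dist y1 y2 + dist y2 y3 + dist y3 y0 := by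
    simp [cyc, pc, add_assoc]
  rw [← hcy, bud_eq] at hc
  generalize [y0, y1, y2, y3] = t at *
  refine ⟨⟨h.disj.ins t, fun x hx => ?_, ?_, ?_⟩, ?_⟩
  · obtain ⟨T, c1, c2, c3⟩ := h.arc x hx
    obtain ⟨T', d1, d2⟩ := ins_sup t (Or.inr c1)
    exact ⟨T', d1, d2 c2, d2 c3⟩
  · obtain ⟨T', d1, d2⟩ := ins_sup t (Or.inr a1)
    exact ⟨T', d1, d2 a2⟩
  · refine le_trans ?_ h.pot
    have hn : [] ∈ H := (hH _).2 (Or.inr ⟨T0, a1, m0, a2⟩)
    have hm : H ∈ P333.ins t Ts := e ▸ List.mem_cons_self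
    have c1 := Finset.sum_le_sum_of_subset (f := downB S) (show (subs S).toFinset.filter
        (fun v => ∃ T ∈ Ts, [] ∉ T ∧ v ∈ T ∧ meets t T = true) ∪ (subs S).toFinset.filter
        (fun v => ¬ ∃ T ∈ P333.ins t Ts, [] ∈ T ∧ v ∈ T) ⊆
        (subs S).toFinset.filter (fun v => ¬ ∃ T ∈ Ts, [] ∈ T ∧ v ∈ T) by
      intro v hv
      rcases mem_union.1 hv with hv | hv
      · obtain ⟨v1, T, v2, v3, v4, -⟩ := mem_filter.1 hv
        refine mem_filter.2 ⟨v1, ?_⟩
        rintro ⟨T', v5, v6, v7⟩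
        exact v3 (h.disj T' v5 T v2 v v7 v4 ▸ v6)
      · obtain ⟨v1, v2⟩ := mem_filter.1 hv
        refine mem_filter.2 ⟨v1, ?_⟩
        rintro ⟨T', v5, v6, v7⟩
        obtain ⟨T2, d1, d2⟩ := ins_sup t (Or.inr v5)
        exact v2 ⟨T2, d1, d2 v6, d2 v7⟩)
    rw [Finset.sum_union (Finset.disjoint_filter.2 (by
      rintro v - ⟨T, v2, -, v4, v5⟩ v6
      exact v6 ⟨H, hm, hn, (hH v).2 (Or.inr ⟨T, v2, v5, v4⟩)⟩))] at c1
    omega
  · have c1 := (List.filter_append_perm (fun T => meets t T) Ts).length_eq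
    have c2 : 2 ≤ (Ts.filter (fun T => meets t T)).length := by
      have : [T0, T1].Subperm (Ts.filter (fun T => meets t T)) :=
        List.subperm_of_subset (by simp; rintro rfl; exact b2 a2) (by simp [a1, b1, m0, m1])
      exact this.length_le
    rw [e]
    simp only [List.length_append, List.length_cons] at c1 ⊢
    omega

theorem final_spec (S : List (List ℕ)) : GInv S (final S) ∧ good S (final S) = [] := by
  have key : ∀ (L Ts : List (List (List ℕ))), GInv S Ts → (good S Ts = [] ∨ Ts.length ≤ L.length) →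
      GInv S (L.foldl (fun Ts _ => gstep S Ts) Ts) ∧
        good S (L.foldl (fun Ts _ => gstep S Ts) Ts) = [] := by
    intro L
    induction L with
    | nil =>
      intro Ts h h1
      refine ⟨h, h1.resolve_right (fun h2 => ?_)⟩
      obtain ⟨T, hT, -⟩ := h.nil
      have := List.length_pos_of_mem hT
      simp only [List.length_nil] at h2; omega
    | cons a L ih =>
      intro Ts h h1
      rw [List.foldl_cons]
      by_cases h2 : good S Ts = []
      · rw [show gstep S Ts = Ts from if_pos h2]; exact ih Ts h (Or.inl h2)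
      · rw [show gstep S Ts = _ from if_neg h2]
        obtain ⟨h3, h4⟩ := h.ins (headI_mem h2)
        have := h1.resolve_left h2
        exact ih _ h3 (Or.inr (by simp only [List.length_cons] at this; omega))
  exact key _ _ (ginv_comps S) (Or.inr le_rfl)

theorem GInv.main {S : List (List ℕ)} {Ts : List (List (List ℕ))} (h : GInv S Ts)
    (hg : good S Ts = []) {s : List ℕ} (hs : s ∈ S) : ∃ T ∈ Ts, [] ∈ T ∧ ∃ z ∈ T, s <:+: z := by
  classical
  by_cases h0 : s = []
  · obtain ⟨T, h1, h2⟩ := h.nil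
    exact ⟨T, h1, h2, [], h2, by simp [h0]⟩
  have hm := mdata S
  obtain ⟨z, ⟨z1, z2⟩, hz⟩ := exists_max (fun z => z ∈ S ∧ s <:+: z) (fun z => z.length)
    S.flatten.length ⟨s, hs, List.infix_refl s⟩
    (fun z h => Int.ofNat_le.2 (List.infix_of_mem_flatten h.1).length_le)
  have zne : z ≠ [] := by rintro rfl; exact h0 (List.infix_nil.1 z2)
  have hmax : ∀ y ∈ (subs S).toFinset, z <:+: y → y.length ≤ z.length := by
    intro y hy h1
    obtain ⟨-, x, x1, x2⟩ := mem_subs.1 (List.mem_toFinset.1 hy)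
    have := hz x ⟨x1, z2.trans (h1.trans x2)⟩
    have := x2.length_le
    omega
  obtain ⟨M, hM, hF⟩ := hm.exists_fam (exists_dec S)
  have inv : ∀ l ∈ M, ∃ T ∈ Ts, ∀ y, l.visits y → y ∈ T := by
    intro l hl
    have harc : ∀ T ∈ Ts, ∀ e ∈ arcs S, (e.1 ∈ T ↔ e.2 ∈ T) := by
      intro T hT e he
      obtain ⟨T', a1, a2, a3⟩ := h.arc e he
      exact ⟨fun b => h.disj T' a1 T hT _ a2 b ▸ a3, fun b => h.disj T' a1 T hT _ a3 b ▸ a2⟩
    have hdn : ∀ v, 0 < down (subs S).toFinset (mm S) v → (v, v.tail) ∈ arcs S := fun v hv =>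
      mem_arcs.2 ⟨v, List.mem_toFinset.1 (hm.mem_of_down hv), Or.inr ⟨by rwa [downB_eq], rfl⟩⟩
    obtain ⟨T, a1, a2, -⟩ := h.arc _ (hdn _ ((dn_pos (Mem.refl l) 0).trans_le (hM.le hl _)))
    refine ⟨T, a1, fun y hy => (hm.visit_iff hM hl (fun y => y ∈ T) (fun v hv => ?_)
      (fun v hv => harc T a1 _ (hdn v hv)) hy).2 a2⟩
    exact harc T a1 (v.dropLast, v) (mem_arcs.2 ⟨v, List.mem_toFinset.1
      (hm.mem_of_pos (by unfold up at hv; omega)), Or.inl ⟨by rwa [upB_eq], rfl⟩⟩)
  obtain ⟨l, hl, hv⟩ := hm.exists_visit hM (mm_pos z1 zne) hmax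
  let conn : Layer → Prop := fun l => ∃ T ∈ Ts, [] ∈ T ∧ ∀ y, l.visits y → y ∈ T
  by_cases hc : conn l
  · obtain ⟨T, a1, a2, a3⟩ := hc
    exact ⟨T, a1, a2, z, a3 z hv, z2⟩
  exfalso
  obtain ⟨l1, hl1, l2, hl2, l3, hl3, y0, y1, y2, y3, c1, c2, c3, c0, v1, v2, v3, hcost⟩ :=
    progress (conn := conn) hF hl hc hv (fun l' hl' y hy h1 => by
      rcases hm.visit_mem hM hl' hy with rfl | h2
      · simp
      · exact hmax y h2 h1)
  have hV : ∀ l ∈ M, ∀ y, l.visits y → y ∈ [] :: subs S := fun l hl y hy => by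
    simpa using hm.visit_mem hM hl hy
  have hout : ∀ l ∈ M, ¬ conn l → ∃ T ∈ Ts, [] ∉ T ∧ ∀ y, l.visits y → y ∈ T := by
    intro l hl hc
    obtain ⟨T, a1, a2⟩ := inv l hl
    exact ⟨T, a1, fun a3 => hc ⟨T, a1, a3, a2⟩, a2⟩
  have : [y0, y1, y2, y3] ∈ good S Ts := by
    refine mem_good.2 ⟨y0, ?_, y1, hV l1 hl1 _ v1, y2, hV l2 hl2 _ v2, y3, hV l3 hl3 _ v3, ?_, ?_,
      ?_, rfl⟩
    · rcases c0 with rfl | ⟨l0, a1, -, a2⟩
      exacts [List.mem_cons_self, hV l0 a1 _ a2]
    · rcases c0 with rfl | ⟨l0, -, ⟨T, a1, a2, a3⟩, a4⟩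
      · obtain ⟨T, a1, a2⟩ := h.nil
        exact ⟨T, a1, a2, a2⟩
      · exact ⟨T, a1, a2, a3 _ a4⟩
    · obtain ⟨T, a1, a2, a3⟩ := hout l1 hl1 c1
      exact ⟨T, a1, a2, a3 _ v1⟩
    · have hB : ∀ x ∈ ({l1, l2, l3} : Finset Layer), x ∈ M ∧ ¬ conn x ∧
          ∃ y ∈ [y0, y1, y2, y3], x.visits y := by
        intro x hx
        simp only [mem_insert, mem_singleton] at hx
        rcases hx with rfl | rfl | rfl
        exacts [⟨hl1, c1, y1, by simp, v1⟩, ⟨hl2, c2, y2, by simp, v2⟩, ⟨hl3, c3, y3, by simp, v3⟩]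
      have := sum_w_le hM (B := ({l1, l2, l3} : Finset Layer).val)
        ((Multiset.le_iff_subset (Finset.nodup _)).2 (fun x hx => (hB x hx).1))
        (C := (subs S).toFinset.filter
          (fun v => ∃ T ∈ Ts, [] ∉ T ∧ v ∈ T ∧ meets [y0, y1, y2, y3] T = true)) (by
        intro x hx X hX
        obtain ⟨a1, a2, y, a3, a4⟩ := hB x hx
        obtain ⟨T, b1, b2, b3⟩ := hout x a1 a2
        exact mem_filter.2 ⟨hm.supp_layer hM a1 X hX _ _ (X.lt 0) le_rfl, T, b1, b2,
          b3 _ (hX.visits (X.mono (by omega)) le_rfl), meets_iff.2 ⟨y, a3, b3 y a4⟩⟩)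
      rw [bud_eq, downB_eq]
      have e : ∑ l ∈ ({l1, l2, l3} : Finset Layer), l.w =
          (({l1, l2, l3} : Finset Layer).val.map Layer.w).sum := rfl
      omega
  rw [hg] at this
  simp at this

theorem spell_spec (l : List (List ℕ)) : ∀ s a : List ℕ, a <:+ s →
    (l.foldl (fun s b => s ++ b.drop (ov s b)) s).length ≤ s.length + pc a l ∧
    s <+: l.foldl (fun s b => s ++ b.drop (ov s b)) s ∧
    ∀ b ∈ l, b <:+: l.foldl (fun s b => s ++ b.drop (ov s b)) s := by
  induction l with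
  | nil => intro s a _; simp
  | cons b l ih =>
    intro s a ha
    have hb : b <:+ s ++ b.drop (ov s b) := by
      obtain ⟨q, hq⟩ := (ov_spec s b).2
      refine ⟨q, ?_⟩
      conv_rhs => rw [← hq, List.append_assoc]
      rw [hq, List.take_append_drop]
    obtain ⟨h1, h2, h3⟩ := ih _ b hb
    have h4 := dist_mono b ha
    refine ⟨?_, (List.prefix_append _ _).trans h2, fun c hc => ?_⟩
    · rw [List.length_append, List.length_drop] at h1
      simp only [List.foldl_cons, pc]
      unfold dist at h4 ⊢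
      omega
    · rcases List.mem_cons.1 hc with rfl | hc
      exacts [hb.isInfix.trans h2.isInfix, h3 c hc]

theorem superstr_spec (S : List (List ℕ)) : (∀ s ∈ S, s <:+: superstr S) ∧
    ∀ T : List ℕ, (∀ s ∈ S, s <:+: T) → (superstr S).length ≤ 2 * T.length := by
  obtain ⟨h, hg⟩ := final_spec S
  obtain ⟨T0, a1, a2⟩ := h.nil
  have h1 : ((final S).filter (fun T => decide ([] ∈ T))).headI ∈
      (final S).filter (fun T => decide ([] ∈ T)) :=
    headI_mem (List.ne_nil_of_mem (a := T0) (by simp [a1, a2]))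
  unfold superstr spell
  generalize ((final S).filter (fun T => decide ([] ∈ T))).headI = H at h1
  simp only [List.mem_filter, decide_eq_true_eq] at h1
  obtain ⟨b1, -, b3⟩ := spell_spec (rot H []) [] [] List.suffix_rfl
  refine ⟨fun s hs => ?_, fun T hT => b1.trans ?_⟩
  · obtain ⟨T, c1, c2, z, c3, c4⟩ := h.main hg hs
    exact c4.trans (b3 z ((rot_perm H []).mem_iff.2 (h.disj T c1 H h1.1 _ c2 h1.2 ▸ c3)))
  · obtain ⟨l, k, e1, e2⟩ := rot_spec h1.2
    have d1 := sum_down_le hT
    have d2 := h.pot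
    have d3 : cyc H ≤ ((final S).map cyc).sum := List.le_sum_of_mem (List.mem_map_of_mem h1.1)
    have d4 := pc_le_append [] (k ++ l) [[]]
    rw [e1, cyc_rotate, cyc] at d3
    rw [downB_eq] at d2
    rw [e2, pc, dist_self]
    simp only [List.length_nil]
    omega

end Vale.Agent.P333
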