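import Vale.Agent.P333.Greedy

/-! The algorithm runs in polynomial time. -/

namespace Vale.Agent.P333

open Vale.Agent.Lib.PolyTime

variable {α : Type} [Enc α]

@[fun_prop] theorem pt_ov {a b : α → List ℕ} (ha : PT a) (hb : PT b) :
    PT (fun x => ov (a x) (b x)) := by unfold ov; fun_prop

@[fun_prop] theorem pt_dist {a b : α → List ℕ} (ha : PT a) (hb : PT b) :
    PT (fun x => dist (a x) (b x)) := by unfold dist; fun_prop

@[fun_prop] theorem pt_subs {S : α → List (List ℕ)} (hS : PT S) : PT (fun x => subs (S x)) := by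
  unfold subs; fun_prop

@[fun_prop] theorem pt_lk {tb : α → List (List ℕ × ℕ)} {v : α → List ℕ} (h1 : PT tb) (h2 : PT v) :
    PT (fun x => lk (tb x) (v x)) := by unfold lk; fun_prop

@[fun_prop] theorem pt_nclB {v z : α → List ℕ} {w n : α → ℕ} (h1 : PT v) (h2 : PT w) (h3 : PT n)
    (h4 : PT z) : PT (fun x => nclB (v x) (w x) (n x) (z x)) := by unfold nclB; fun_prop

/-- `clB` with a table. -/
def clT (Z : List (List ℕ)) (tb : List (List ℕ × ℕ)) (v : List ℕ) (w n : ℕ) : ℕ :=
  clB Z (lk tb) v w n

@[fun_prop] theorem pt_clT {Z : α → List (List ℕ)} {tb : α → List (List ℕ × ℕ)} {v : α → List ℕ}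
    {w n : α → ℕ} (h0 : PT Z) (h1 : PT tb) (h2 : PT v) (h3 : PT w) (h4 : PT n) :
    PT (fun x => clT (Z x) (tb x) (v x) (w x) (n x)) := by unfold clT clB; fun_prop

theorem pt_rule {S : α → List (List ℕ)} {tb : α → List (List ℕ × ℕ)} {u : α → List ℕ}
    (h0 : PT S) (h1 : PT tb) (h2 : PT u) : PT (fun x => rule (S x) (lk (tb x)) (u x)) := by
  have : PT (fun x => lmax ([(((subs (S x)).filter (fun z => decide (z.tail = u x))).map
      (fun z => lk (tb x) z)).sum, (((subs (S x)).filter (fun z => decide (z.dropLast = u x))).map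
      (fun z => lk (tb x) z)).sum, if u x ∈ S x then 1 else 0] ++
    ((subs (S x)).filter (fun v => decide ((u x).length < v.length ∧ u x <+: v ∧ u x <:+ v ∧
      clT (subs (S x)) (tb x) v (v.length - (u x).length) v.length < lk (tb x) v))).map (fun v =>
        lk (tb x) v - clT (subs (S x)) (tb x) v (v.length - (u x).length) v.length +
          clT (subs (S x)) (tb x) v (v.length - (u x).length) (u x).length + 1))) := by
    fun_prop
  exact this

theorem pt_table : PT table := by
  have h1 : PT (fun q : (List (List ℕ) × ℕ × List (List ℕ × ℕ)) × List ℕ =>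
      rule q.1.1 (lk q.1.2.2) q.2) := pt_rule (by fun_prop) (by fun_prop) (by fun_prop)
  have h2 : PT (fun S : List (List ℕ) => subs S) := by fun_prop
  have h3 : PT (fun S : List (List ℕ) => S.flatten) := by fun_prop
  refine PT.foldr_add (f := stepT) (i := fun _ => [])
    (D := fun S => (subs S).length * (2 * (2 * sz (subs S) + S.flatten.length + 1) + 2))
    (by unfold stepT; fun_prop) (by fun_prop) (by fun_prop)
    (h2.pb_length.mul (((((PB.const 2).mul h2.1).add h3.pb_length).add (PB.const 1)).lin 2 2))
    (fun S tb n _ => ?_)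
  rw [stepT, sz_append]
  refine Nat.add_le_add_left ((sz_le_of_forall
    (b := 2 * sz (subs S) + S.flatten.length + 1) (fun y hy => ?_)).trans
    (Nat.mul_le_mul_right _ ?_)) _
  · obtain ⟨u, hu, rfl⟩ := List.mem_map.1 hy
    have a1 := sz_mem (List.mem_filter.1 hu).1
    have a2 := sz_nat_le (min (rule S (lk tb) u) S.flatten.length)
    simp only [sz_pair]; omega
  · rw [List.length_map]; exact List.length_filter_le _ _

@[fun_prop] theorem pt_mm {S : α → List (List ℕ)} {v : α → List ℕ} (h1 : PT S) (h2 : PT v) :
    PT (fun x => mm (S x) (v x)) := pt_lk (pt_table.comp h1) h2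

@[fun_prop] theorem pt_upB {S : α → List (List ℕ)} {v : α → List ℕ} (h1 : PT S) (h2 : PT v) :
    PT (fun x => upB (S x) (v x)) := by unfold upB; fun_prop

@[fun_prop] theorem pt_downB {S : α → List (List ℕ)} {v : α → List ℕ} (h1 : PT S) (h2 : PT v) :
    PT (fun x => downB (S x) (v x)) := by unfold downB; fun_prop

theorem pt_arcs : PT arcs := by unfold arcs; fun_prop

theorem pt_hstep : PT hstep := by unfold hstep; fun_prop

theorem sz_hstep (s : List (List ℕ × List ℕ) × List (List ℕ) × List (List (List ℕ))) :
    sz (hstep s) ≤ sz s + 10 := by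
  obtain ⟨rem, cur, dn⟩ := s
  unfold hstep
  split_ifs with h0
  · cases rem with
    | nil =>
      simp only [List.tail_nil, List.headI_nil, sz_pair, sz_cons, sz_nil]
      have : sz (default : List ℕ × List ℕ).1 = 0 ∧ sz (default : List ℕ × List ℕ).2 = 0 :=
        ⟨rfl, rfl⟩
      omega
    | cons e rem =>
      simp only [List.tail_cons, List.headI_cons, sz_pair, sz_cons, sz_nil, sz_prod e]; omega
  · have e1 := congrArg sz (List.takeWhile_append_dropWhile
      (p := fun e => decide (e.1 ≠ cur.getLastD [])) (l := rem))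
    obtain ⟨e, r, hr⟩ := List.exists_cons_of_ne_nil h0
    simp only at hr ⊢
    rw [hr] at e1 ⊢
    simp only [List.tail_cons, List.headI_cons, sz_pair, sz_cons, sz_nil, sz_prod e,
      sz_append] at e1 ⊢
    omega

theorem pt_hrun : PT hrun :=
  PT.foldl_add (f := fun _ s _ => hstep s) (l := fun A => A) (i := fun A => (A, [[]], []))
    (pt_hstep.comp (by fun_prop)) (by fun_prop) (by fun_prop) (PB.const 10)
    (fun _ s _ _ => sz_hstep s)

theorem pt_tours : PT tours := by
  have := pt_hrun.comp pt_arcs
  unfold tours; fun_prop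

@[fun_prop] theorem pt_rot {T : α → List (List ℕ)} {y : α → List ℕ} (h1 : PT T) (h2 : PT y) :
    PT (fun x => rot (T x) (y x)) := by unfold rot; fun_prop

@[fun_prop] theorem pt_meets {t T : α → List (List ℕ)} (h1 : PT t) (h2 : PT T) :
    PT (fun x => meets (t x) (T x)) := by unfold meets; fun_prop

@[fun_prop] theorem pt_merge {t acc T : α → List (List ℕ)} (h1 : PT t) (h2 : PT acc) (h3 : PT T) :
    PT (fun x => merge (t x) (acc x) (T x)) := by unfold merge; fun_prop

@[fun_prop] theorem pt_ins {t : α → List (List ℕ)} {Ts : α → List (List (List ℕ))} (h1 : PT t)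
    (h2 : PT Ts) : PT (fun x => ins (t x) (Ts x)) := by
  have h3 : PT (fun x => ((Ts x).filter (fun T => meets (t x) T)).foldl (merge (t x)) (t x)) :=
    PT.foldl_add (f := fun x => merge (t x)) (by fun_prop) (by fun_prop) h1 h2.1
      (fun x s T hT => by
        rw [sz_perm (merge_perm _ _ _), sz_append]
        exact Nat.add_le_add_left (sz_mem (List.mem_filter.1 hT).1) _)
  unfold ins; fun_prop

theorem sz_ins (t : List (List ℕ)) (Ts : List (List (List ℕ))) :
    sz (ins t Ts) ≤ sz Ts + (2 * sz t + 2) := by
  have h1 := sz_perm (List.filter_append_perm (fun T => meets t T) Ts)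
  have h2 := sz_perm (fold_merge t (Ts.filter (fun T => meets t T)) t).1
  have h3 : ∀ H : List (List (List ℕ)), 2 * sz H.flatten ≤ sz H := by
    intro H
    induction H with
    | nil => simp
    | cons T H ih => rw [List.flatten_cons, sz_append, sz_cons]; omega
  have h4 := h3 (Ts.filter (fun T => meets t T))
  rw [sz_append] at h1 h2
  rw [ins, sz_cons]; omega

theorem pt_comps : PT comps :=
  PT.foldl_add (f := fun _ Ts t => ins t Ts) (i := fun _ => []) (by fun_prop) pt_tours
    (by fun_prop) (pt_tours.1.lin 2 2) (fun S Ts t ht => by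
      have := sz_mem ht
      have := sz_ins t Ts
      omega)

@[fun_prop] theorem pt_bud {S t : α → List (List ℕ)} {Ts : α → List (List (List ℕ))} (h1 : PT S)
    (h2 : PT Ts) (h3 : PT t) : PT (fun x => bud (S x) (Ts x) (t x)) := by unfold bud; fun_prop

@[fun_prop] theorem pt_good {S : α → List (List ℕ)} {Ts : α → List (List (List ℕ))} (h1 : PT S)
    (h2 : PT Ts) : PT (fun x => good (S x) (Ts x)) := by unfold good; fun_prop

theorem pt_final : PT final := by
  have h2 : PT (fun S : List (List ℕ) => [] :: subs S) := by fun_prop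
  refine PT.foldl_add (f := fun S Ts _ => gstep S Ts) (by unfold gstep; fun_prop) pt_comps
    pt_comps (h2.1.lin 16 18) (fun S Ts _ _ => ?_)
  unfold gstep
  split_ifs with h
  · omega
  · obtain ⟨y0, a0, y1, a1, y2, a2, y3, a3, -, -, -, e⟩ := mem_good.1 (headI_mem h)
    have b := sz_ins (good S Ts).headI Ts
    have b0 := sz_mem a0
    have b1 := sz_mem a1
    have b2 := sz_mem a2
    have b3 := sz_mem a3
    have c : sz (good S Ts).headI = 2 * sz y0 + 2 * sz y1 + 2 * sz y2 + 2 * sz y3 + 8 := by
      rw [← e]; simp only [sz_cons, sz_nil]; omega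
    beta_reduce; omega

theorem pt_spell : PT spell :=
  PT.foldl_add (f := fun _ (s b : List ℕ) => s ++ b.drop (ov s b)) (l := fun l => l) (i := fun _ => [])
    (by fun_prop) (by fun_prop) (by fun_prop) PB.sz (fun l s b hb => by
      rw [sz_append]
      exact Nat.add_le_add_left ((sz_sublist (List.drop_sublist _ _)).trans (sz_mem hb)) _)

theorem pt_superstr : PT superstr := by
  have h := pt_final
  exact pt_spell.comp (by fun_prop)

/-- Decode the list of numbers into the family of strings. -/
def parse (l : List ℕ) : List (List ℕ) :=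
  l.foldr (fun a acc => if a = 0 then [] :: acc else ((a - 1) :: acc.headI) :: acc.tail) []

theorem parse_code (S : List (List ℕ)) :
    parse (S.flatMap (fun s => s.map (fun a => a + 1) ++ [0])) = S := by
  induction S with
  | nil => rfl
  | cons s S ih =>
    unfold parse at ih ⊢
    rw [List.flatMap_cons, List.foldr_append, ih]
    induction s with
    | nil => simp
    | cons a s ih2 =>
      simp only [List.map_cons, List.cons_append, List.foldr_cons, ih2]
      simp

theorem pt_parse : PT parse :=
  PT.foldr_add (f := fun _ (a : ℕ) (acc : List (List ℕ)) =>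
      if a = 0 then [] :: acc else ((a - 1) :: acc.headI) :: acc.tail)
    (l := fun l => l) (i := fun _ => []) (by fun_prop) (by fun_prop) (by fun_prop)
    (PB.sz.lin 4 6) (fun l acc a ha => by
      have h1 := sz_mem ha
      have h2 : sz (a - 1) ≤ sz a := sz_nat_mono (by omega)
      split_ifs
      · simp only [sz_cons, sz_nil]; omega
      · cases acc with
        | nil =>
          have : sz (default : List ℕ) = 0 := rfl
          simp only [List.headI_nil, List.tail_nil, sz_cons, sz_nil]; omega
        | cons b acc => simp only [List.headI_cons, List.tail_cons, sz_cons]; omega)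

end Vale.Agent.P333
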