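import Vale.Agent.P333.Word

/-! Layers (periodic staircase walks along periodic words) and the progress lemma. -/

namespace Vale.Agent.P333

/-- A periodic word `P` with period `w` and a periodic staircase `r`. -/
structure Layer where
  w : ℤ
  P : ℤ → ℕ
  r : ℤ → ℤ
  w_pos : 0 < w
  per : ∀ t, P (t + w) = P t
  rper : ∀ t, r (t + w) = r t + w
  step : ∀ t, r t ≤ r (t + 1)
  lt : ∀ t, t < r t

namespace Layer

theorem mono (Y : Layer) {a b : ℤ} (h : a ≤ b) : Y.r a ≤ Y.r b :=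
  monotone_int_of_le_succ Y.step h

theorem rper_mul (Y : Layer) (k t : ℤ) : Y.r (t + k * Y.w) = Y.r t + k * Y.w := by
  have h1 : Function.Periodic (fun t => Y.r t - t) Y.w := fun t => by simp [Y.rper]
  have := h1.int_mul k t
  simp only [Int.cast_id] at this
  omega

theorem ext' {Y Z : Layer} (h1 : Y.w = Z.w) (h2 : Y.P = Z.P) (h3 : Y.r = Z.r) : Y = Z := by
  cases Y; cases Z; simp_all

/-- Shifted layer. -/
def sh (Y : Layer) (d : ℤ) : Layer where
  w := Y.w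
  P t := Y.P (t + d)
  r t := Y.r (t + d) - d
  w_pos := Y.w_pos
  per t := by rw [← Y.per (t + d)]; congr 1; ring
  rper t := by rw [show t + Y.w + d = t + d + Y.w by ring, Y.rper]; ring
  step t := by have := Y.mono (show t + d ≤ t + 1 + d by omega); omega
  lt t := by have := Y.lt (t + d); omega

theorem sh_sh (Y : Layer) (d e : ℤ) : (Y.sh d).sh e = Y.sh (e + d) :=
  ext' rfl (by funext t; simp [sh, add_assoc]) (by funext t; simp [sh, add_assoc]; ring)

theorem sh_zero (Y : Layer) : Y.sh 0 = Y :=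
  ext' rfl (by funext t; simp [sh]) (by funext t; simp [sh])

theorem word_sh (Y : Layer) (d a b : ℤ) : word (Y.sh d).P a b = word Y.P (a + d) (b + d) :=
  word_ext (by ring) (fun t _ _ => by simp only [sh]; congr 1; ring)

/-- The words visited by the walk. -/
def visits (Y : Layer) (y : List ℕ) : Prop :=
  ∃ a b, Y.r (a - 1) ≤ b ∧ b ≤ Y.r a ∧ y = word Y.P a b

/-- The area below the staircase. -/
noncomputable def area (Y : Layer) : ℤ := ∑ t ∈ Finset.Ico 0 Y.w, (Y.r t - t)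

theorem area_nonneg (Y : Layer) : 0 ≤ Y.area :=
  Finset.sum_nonneg (fun t _ => by have := Y.lt t; omega)

theorem area_lt {Y Z : Layer} (hw : Z.w = Y.w) (h : ∀ t, Z.r t ≤ Y.r t) (hne : Z.r ≠ Y.r) :
    Z.area < Y.area := by
  obtain ⟨t, ht⟩ := Function.ne_iff.1 hne
  unfold area
  rw [hw]
  refine Finset.sum_lt_sum (fun t _ => by have := h t; omega) ⟨t % Y.w, ?_, ?_⟩
  · exact Finset.mem_Ico.2 ⟨Int.emod_nonneg _ Y.w_pos.ne', Int.emod_lt_of_pos _ Y.w_pos⟩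
  · have h1 := Y.rper_mul (t / Y.w) (t % Y.w)
    have h2 := Z.rper_mul (t / Y.w) (t % Y.w)
    rw [hw] at h2
    rw [show t % Y.w + t / Y.w * Y.w = t by linarith [Int.emod_add_mul_ediv t Y.w]] at h1 h2
    have := h t
    omega

end Layer

/-- `Y` is a shift of `l`. -/
def Mem (l Y : Layer) : Prop := ∃ d, Y = l.sh d

theorem Mem.refl (l : Layer) : Mem l l := ⟨0, l.sh_zero.symm⟩

theorem Mem.w {l Y : Layer} (h : Mem l Y) : Y.w = l.w := by obtain ⟨d, rfl⟩ := h; rfl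

theorem Mem.sh {l Y : Layer} (h : Mem l Y) (e : ℤ) : Mem l (Y.sh e) := by
  obtain ⟨d, rfl⟩ := h; exact ⟨_, l.sh_sh d e⟩

theorem Mem.visits {l Y : Layer} (h : Mem l Y) {a b : ℤ} (h1 : Y.r (a - 1) ≤ b) (h2 : b ≤ Y.r a) :
    l.visits (word Y.P a b) := by
  obtain ⟨d, rfl⟩ := h
  refine ⟨a + d, b + d, ?_, ?_, l.word_sh d a b⟩
  · simp only [Layer.sh] at h1
    rw [show a + d - 1 = a - 1 + d by ring]; omega
  · simp only [Layer.sh] at h2; omega

/-- A region of `Z` relative to `Y`. -/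
def Reg (Y Z : Layer) (a b : ℤ) : Prop :=
  Agree Z.P Y.P a b ∧ Z.r (a - 1) ≤ b ∧
    (Z.P ≠ Y.P ∨ (Z.P = Y.P ∧ (∀ t, Z.r t ≤ Y.r t) ∧ Z.r ≠ Y.r))

/-- The region covers row `i`. -/
def Cov (Y Z : Layer) (a b i : ℤ) : Prop := a ≤ i ∧ Y.r i - Y.w ≤ b ∧ Y.r i - Y.w ≤ Z.r i

/-- Properties of a normalized family of layers. -/
structure Fam (F : Set Layer) : Prop where
  same : ∀ l ∈ F, ∀ Y Z, Mem l Y → Mem l Z → Y.P = Z.P → Y.r = Z.r
  cmp : ∀ l ∈ F, ∀ l' ∈ F, ∀ Y Z, Mem l Y → Mem l' Z → Y.P = Z.P →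
    Y.w = Z.w ∧ ((∀ t, Y.r t ≤ Z.r t) ∨ (∀ t, Z.r t ≤ Y.r t))
  bdd : ∃ D, ∀ l ∈ F, l.w ≤ D
  cover : ∀ l ∈ F, ∀ Y, Mem l Y → (∀ t, t + Y.w < Y.r (t - 1)) → ∀ i,
    ∃ l' ∈ F, ∃ Z a b, Mem l' Z ∧ Reg Y Z a b ∧ Cov Y Z a b i

/-- Words already reached. -/
def Con (F : Set Layer) (conn : Layer → Prop) (y : List ℕ) : Prop :=
  y = [] ∨ ∃ l ∈ F, conn l ∧ l.visits y

open Classical in
/-- A cheap closed walk through a reached word and at most three new layers. -/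
def Step (F : Set Layer) (conn : Layer → Prop) : Prop :=
  ∃ l1 ∈ F, ∃ l2 ∈ F, ∃ l3 ∈ F, ∃ y0 y1 y2 y3, ¬ conn l1 ∧ ¬ conn l2 ∧ ¬ conn l3 ∧
    Con F conn y0 ∧ l1.visits y1 ∧ l2.visits y2 ∧ l3.visits y3 ∧
    (dist y0 y1 + dist y1 y2 + dist y2 y3 + dist y3 y0 : ℤ) ≤
      ∑ l ∈ ({l1, l2, l3} : Finset Layer), l.w

section
variable {F : Set Layer} {conn : Layer → Prop}

theorem dstep (H : ¬ Step F conn) {l Y : Layer} (hl : l ∈ F) (hc : ¬ conn l) (hY : Mem l Y)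
    {a b : ℤ} (hz : Con F conn (word Y.P a b)) (h1 : Y.r (a - 1) - Y.w ≤ b)
    (h2 : b ≤ Y.r a + Y.w) : False := by
  have hm := Y.mono (show a - 1 ≤ a by omega)
  have hw := Y.w_pos
  obtain ⟨c, c1, c2, c3, c4⟩ : ∃ c, Y.r (a - 1) ≤ c ∧ c ≤ Y.r a ∧ c ≤ b + Y.w ∧ b ≤ c + Y.w :=
    ⟨max (Y.r (a - 1)) (min b (Y.r a)), by omega, by omega, by omega, by omega⟩
  have hv := hY.visits c1 c2
  refine H ⟨l, hl, l, hl, l, hl, _, _, _, _, hc, hc, hc, hz, hv, hv, hv, ?_⟩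
  simp only [dist_self, Finset.mem_singleton, Finset.insert_eq_of_mem, Finset.sum_singleton,
    ← hY.w]
  by_cases h3 : b ≤ c
  · have d1 := dist_word Y.P (le_refl a) h3
    have d2 := dist_word Y.P (show a ≤ a + Y.w by omega) c3
    rw [word_per Y.per] at d2
    omega
  · have d1 := dist_word Y.P (le_refl a) (show c ≤ b by omega)
    have d2 := dist_word Y.P (show a ≤ a + Y.w by omega) c4
    rw [word_per Y.per] at d2
    omega

theorem long (H : ¬ Step F conn) {l Y : Layer} (hl : l ∈ F) (hc : ¬ conn l) (hY : Mem l Y)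
    (t : ℤ) : t + Y.w < Y.r (t - 1) := by
  by_contra h
  have := Y.lt t
  have := Y.w_pos
  exact dstep H hl hc hY (a := t) (b := t) (Or.inl (word_nil _ le_rfl)) (by omega) (by omega)

theorem agree_lt {Y Z : Layer} (hne : Z.P ≠ Y.P) {a b : ℤ} (h : Agree Z.P Y.P a b) :
    b - a < Y.w + Z.w := by
  by_contra h1
  have := Y.w_pos
  have := Z.w_pos
  exact hne (fine_wilf (Y.w + Z.w).toNat Y.w_pos Z.w_pos (by omega) Y.per Z.per h (by omega))

open Classical in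
theorem agree_le {l l' Y Z : Layer} (hY : Mem l Y) (hZ : Mem l' Z) (hne : Z.P ≠ Y.P) {a b : ℤ}
    (h : Agree Z.P Y.P a b) : b - a ≤ ∑ x ∈ ({l, l'} : Finset Layer), x.w := by
  by_cases e : l = l'
  · subst e
    simp only [Finset.mem_singleton, Finset.insert_eq_of_mem, Finset.sum_singleton]
    by_contra h1
    exact hne (eq_of_agree_per l.w_pos (hY.w ▸ Y.per) (hZ.w ▸ Z.per) h (by omega))
  · rw [Finset.sum_pair e, ← hY.w, ← hZ.w]
    exact (agree_lt hne h).le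

theorem caseA (H : ¬ Step F conn) {l l' Y Z : Layer} (hl : l ∈ F) (hc : ¬ conn l) (hY : Mem l Y)
    (hl' : l' ∈ F) (hc' : ¬ conn l') (hZ : Mem l' Z) (hne : Z.P ≠ Y.P) {a b : ℤ}
    (h1 : Z.r (a - 1) ≤ b) (h2 : b ≤ Z.r a) (h : Agree Z.P Y.P a b) : b < Y.r (a - 1) := by
  classical
  by_contra h3
  have hv := hY.visits le_rfl (Y.mono (show a - 1 ≤ a by omega))
  have hz := hZ.visits h1 h2
  rw [h.word] at hz
  refine H ⟨l, hl, l', hl', l', hl', [], _, _, _, hc, hc', hc', Or.inl rfl, hv, hz, hz, ?_⟩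
  have d1 := dist_word Y.P (le_refl a) (show a ≤ Y.r (a - 1) by have := Y.lt (a - 1); omega)
  have d2 := dist_word Y.P (le_refl a) (show Y.r (a - 1) ≤ b by omega)
  rw [word_nil _ le_rfl] at d1
  have d3 := agree_le hY hZ hne h
  simp only [dist_self, dist_nil, Finset.mem_singleton, Finset.insert_eq_of_mem]
  omega

/-- No connected layer with another word reaches up to `Y`. -/
def Good (F : Set Layer) (conn : Layer → Prop) (Y : Layer) : Prop :=
  ∀ l' ∈ F, conn l' → ∀ Z, Mem l' Z → Z.P ≠ Y.P → ∀ a b, Z.r (a - 1) ≤ b → b ≤ Z.r a →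
    Agree Z.P Y.P a b → b < Y.r (a - 1)

theorem last_vertex (Z : Layer) {a b i : ℤ} (h1 : Z.r (a - 1) ≤ b) (h2 : a ≤ i) :
    ∃ x, a ≤ x ∧ x ≤ i ∧ Z.r (x - 1) ≤ b ∧ (x = i ∨ b < Z.r x) := by
  classical
  obtain ⟨x, ⟨x1, x2, x3⟩, hx⟩ := Int.exists_greatest_of_bdd
    (P := fun x => a ≤ x ∧ x ≤ i ∧ Z.r (x - 1) ≤ b) ⟨i, fun _ h => h.2.1⟩ ⟨a, le_rfl, h2, h1⟩
  refine ⟨x, x1, x2, x3, ?_⟩
  by_contra h
  have := hx (x + 1) ⟨by omega, by omega, by rw [add_sub_cancel_right]; omega⟩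
  omega

theorem no_good (hF : Fam F) (H : ¬ Step F conn) (n : ℕ) : ∀ l ∈ F, ¬ conn l → ∀ Y, Mem l Y →
    Good F conn Y → Y.area < n → False := by
  classical
  induction n with
  | zero => intro l _ _ Y _ _ h; have := Y.area_nonneg; omega
  | succ n ih =>
  intro l hl hc Y hY hG hn
  have hw := Y.w_pos
  have h0 := long H hl hc hY
  have h0' : ∀ t, t + 1 + Y.w < Y.r t := fun t => by simpa using h0 (t + 1)
  have strict : ∀ l' ∈ F, ∀ Z, Mem l' Z → Z.P ≠ Y.P → ∀ a b, Z.r (a - 1) ≤ b → b ≤ Z.r a →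
      Agree Z.P Y.P a b → b < Y.r (a - 1) := by
    intro l' hl' Z hZ hne a b h1 h2 h
    by_cases hc' : conn l'
    · exact hG l' hl' hc' Z hZ hne a b h1 h2 h
    · exact caseA H hl hc hY hl' hc' hZ hne h1 h2 h
  have below : ∀ l' ∈ F, ∀ Z a b, Mem l' Z → Reg Y Z a b → ∀ x y, a ≤ x → y ≤ b →
      Z.r (x - 1) ≤ y → y ≤ Z.r x →
      Z.r (x - 1) ≤ Y.r (x - 1) ∧ y ≤ Y.r x ∧ (y < Z.r x → y < Y.r x) := by
    intro l' hl' Z a b hZ hR x y h1 h2 h3 h4
    rcases hR.2.2 with hne | ⟨-, hle, -⟩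
    · have := strict l' hl' Z hZ hne x y h3 h4 (hR.1.mono h1 h2)
      have := Y.mono (show x - 1 ≤ x by omega)
      omega
    · have := hle x
      have := hle (x - 1)
      omega
  have unconn : ∀ l' ∈ F, ∀ Z a b i, Mem l' Z → Reg Y Z a b → Cov Y Z a b i → ¬ conn l' := by
    intro l' hl' Z a b i hZ hR hC hc'
    obtain ⟨x, x1, x2, x3, x4⟩ := last_vertex Z hR.2.1 hC.1
    have m1 := Z.mono (show x - 1 ≤ i by omega)
    have m2 := Y.mono (show x - 1 ≤ i by omega)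
    have v1 : Z.r (x - 1) ≤ min (Z.r i) b := by omega
    have v2 : min (Z.r i) b ≤ Z.r x := by rcases x4 with rfl | x4 <;> omega
    have hv := hZ.visits v1 v2
    rw [(hR.1.mono x1 (min_le_right _ _)).word] at hv
    have hb := below l' hl' Z a b hZ hR x _ x1 (min_le_right _ _) v1 v2
    obtain ⟨-, c2, c3⟩ := hC
    exact dstep H hl hc hY (Or.inr ⟨l', hl', hc', hv⟩) (by omega) (by omega)
  have ne : ∀ l', ∀ Z a b, Mem l' Z → Reg Y Z a b → l ≠ l' := by
    rintro l' Z a b hZ hR rfl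
    rcases hR.2.2 with hne | ⟨he, -, hne⟩
    · have h1 := long H hl hc hZ a
      have h2 := hR.2.1
      exact hne (eq_of_agree_per Z.w_pos (by rw [hZ.w, ← hY.w]; exact Y.per) Z.per hR.1 (by omega))
    · exact hne (hF.same l hl Z Y hZ hY he)
  let Rg : ℤ → ℤ → Prop := fun s e => ∃ l' ∈ F, ∃ Z a b, Mem l' Z ∧ Reg Y Z a b ∧
    ∀ i, s ≤ i → i ≤ e → Cov Y Z a b i
  have row : ∀ i, Rg i i := by
    intro i
    obtain ⟨l', hl', Z, a, b, hZ, hR, hC⟩ := hF.cover l hl Y hY h0 i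
    exact ⟨l', hl', Z, a, b, hZ, hR, fun j h1 h2 => by rwa [show j = i by omega]⟩
  obtain ⟨D, hD⟩ := hF.bdd
  have bound : ∀ e, 0 ≤ e ∧ Rg 0 e → e ≤ Y.w + D := by
    rintro e ⟨he, l', hl', Z, a, b, hZ, hR, hC⟩
    have hd := hD l' hl'
    rw [← hZ.w] at hd
    have hzw := Z.w_pos
    rcases hR.2.2 with hne | ⟨hP, hle, hne⟩
    · have h1 := agree_lt hne hR.1
      have h2 := (hC 0 le_rfl he).1
      have h3 := (hC e he le_rfl).2.1
      have h4 := h0' e
      omega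
    · by_contra h1
      have hww : Z.w = Y.w := (hF.cmp l' hl' l hl Z Y hZ hY hP).1
      have hall : ∀ t, Y.r t - Y.w ≤ Z.r t := by
        intro t
        have e1 := Y.rper_mul (t / Y.w) (t % Y.w)
        have e2 := Z.rper_mul (t / Y.w) (t % Y.w)
        rw [hww] at e2
        rw [show t % Y.w + t / Y.w * Y.w = t by linarith [Int.emod_add_mul_ediv t Y.w]] at e1 e2
        have e3 := Int.emod_lt_of_pos t hw
        have := (hC (t % Y.w) (Int.emod_nonneg _ hw.ne') (by omega)).2.2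
        omega
      refine ih l' hl' (unconn l' hl' Z a b 0 hZ hR (hC 0 le_rfl he)) Z hZ ?_ ?_
      · intro l2 hl2 hc2 X hX hne2 x y y1 y2 hag
        by_contra y3
        rw [hP] at hne2 hag
        have y4 := hG l2 hl2 hc2 X hX hne2 x y y1 y2 hag
        have hv := hX.visits y1 y2
        rw [hag.word] at hv
        have := hall (x - 1)
        have := Y.mono (show x - 1 ≤ x by omega)
        exact dstep H hl hc hY (Or.inr ⟨l2, hl2, hc2, hv⟩) (by omega) (by omega)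
      · have := Layer.area_lt hww hle hne
        push_cast at hn; omega
  obtain ⟨e, ⟨he, l1, hl1, Z1, a1, b1, hZ1, hR1, hC1⟩, hemax⟩ := Int.exists_greatest_of_bdd
    (P := fun e => 0 ≤ e ∧ Rg 0 e) ⟨_, bound⟩ ⟨0, le_rfl, row 0⟩
  have tpos : ∀ t, t ≤ e + 1 ∧ Rg t (e + 1) → 1 ≤ t := by
    rintro t ⟨-, l', hl', Z, a, b, hZ, hR, hC⟩
    by_contra h
    have := hemax (e + 1) ⟨by omega, l', hl', Z, a, b, hZ, hR, fun i h1 h2 => hC i (by omega) h2⟩
    omega
  obtain ⟨t, ⟨ht, l2, hl2, Z2, a2, b2, hZ2, hR2, hC2⟩, htmin⟩ := Int.exists_least_of_bdd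
    (P := fun t => t ≤ e + 1 ∧ Rg t (e + 1)) ⟨1, tpos⟩ ⟨e + 1, le_rfl, row _⟩
  have ht1 := tpos t ⟨ht, l2, hl2, Z2, a2, b2, hZ2, hR2, hC2⟩
  have ext1 : ∀ a b, Reg Y Z1 a b → a ≤ a1 → b1 ≤ b → ¬ Cov Y Z1 a b (e + 1) := by
    intro a b hR ha hb hC
    have := hemax (e + 1) ⟨by omega, l1, hl1, Z1, a, b, hZ1, hR, fun i h1 h2 => by
      by_cases h3 : i = e + 1
      · rwa [h3]
      · obtain ⟨c1, c2, c3⟩ := hC1 i h1 (by omega)
        exact ⟨by omega, by omega, c3⟩⟩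
    omega
  have ext2 : ∀ a b, Reg Y Z2 a b → a ≤ a2 → b2 ≤ b → ¬ Cov Y Z2 a b (t - 1) := by
    intro a b hR ha hb hC
    have := htmin (t - 1) ⟨by omega, l2, hl2, Z2, a, b, hZ2, hR, fun i h1 h2 => by
      by_cases h3 : i = t - 1
      · rwa [h3]
      · obtain ⟨c1, c2, c3⟩ := hC2 i (by omega) h2
        exact ⟨by omega, by omega, c3⟩⟩
    omega
  obtain ⟨p1, -, -⟩ := hC1 0 le_rfl he
  obtain ⟨-, p2, p3⟩ := hC1 e he le_rfl
  obtain ⟨-, p4, p5⟩ := hC1 (t - 1) (by omega) (by omega)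
  obtain ⟨q1, -, -⟩ := hC2 t le_rfl ht
  obtain ⟨-, q2, q3⟩ := hC2 (e + 1) ht le_rfl
  have g1 := h0' e
  have g2 := Y.step e
  have g3 := Y.mono (show t - 1 ≤ e by omega)
  have g4 := Z1.step e
  by_cases hPP : Z1.P = Z2.P
  · have hag : Agree Z1.P Y.P (min a1 a2) (max b1 b2) := by
      intro x x1 x2
      by_cases x3 : a1 ≤ x ∧ x < b1
      · exact hR1.1 x x3.1 x3.2
      · rw [hPP]; exact hR2.1 x (by omega) (by omega)
    rcases (hF.cmp l1 hl1 l2 hl2 Z1 Z2 hZ1 hZ2 hPP).2 with hle | hle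
    · have m1 := Z2.mono (show min a1 a2 - 1 ≤ a2 - 1 by omega)
      have m2 := hR2.2.1
      have m3 := hle (t - 1)
      exact ext2 (min a1 a2) (max b1 b2) ⟨hPP ▸ hag, by omega, hR2.2.2⟩ (by omega) (by omega)
        ⟨by omega, by omega, by omega⟩
    · have m1 := Z1.mono (show min a1 a2 - 1 ≤ a1 - 1 by omega)
      have m2 := hR1.2.1
      have m3 := hle (e + 1)
      exact ext1 (min a1 a2) (max b1 b2) ⟨hag, by omega, hR1.2.2⟩ (by omega) (by omega)
        ⟨by omega, by omega, by omega⟩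
  · have n1 := ext1 a1 b1 hR1 le_rfl le_rfl
    have n2 := ext2 a2 b2 hR2 le_rfl le_rfl
    unfold Cov at n1 n2
    have z1 : Z2.r (t - 1) ≤ b2 := by
      by_cases h : a2 = t
      · rw [← h]; exact hR2.2.1
      · omega
    have z2 := Z2.mono (show t - 1 ≤ t by omega)
    have z3 := (below l2 hl2 Z2 a2 b2 hZ2 hR2 t _ q1 z1 le_rfl z2).1
    have hz := hZ2.visits le_rfl z2
    rw [(hR2.1.mono q1 z1).word] at hz
    have hv := hY.visits le_rfl (Y.mono (show t - 1 ≤ t by omega))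
    obtain ⟨x, x1, x2, x3, x4⟩ := last_vertex Z1 hR1.2.1 (show a1 ≤ e + 1 by omega)
    have m1 := Z1.mono (show x - 1 ≤ e + 1 by omega)
    have v1 : Z1.r (x - 1) ≤ min (Z1.r (e + 1)) b1 := by omega
    have v2 : min (Z1.r (e + 1)) b1 ≤ Z1.r x := by rcases x4 with rfl | x4 <;> omega
    have hy := hZ1.visits v1 v2
    rw [(hR1.1.mono x1 (min_le_right _ _)).word] at hy
    have hb := (below l1 hl1 Z1 a1 b1 hZ1 hR1 x _ x1 (min_le_right _ _) v1 v2).2.2
    have hx : t ≤ x + Y.w := by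
      by_contra h
      have e1 := Y.mono (show x + Y.w ≤ t - 1 by omega)
      have e2 := Y.rper x
      rcases x4 with rfl | x4 <;> omega
    generalize hcc : min (Z1.r (e + 1)) b1 = c at *
    have hI : Agree Z1.P Z2.P t c := fun s s1 s2 =>
      (hR1.1 s (by omega) (by omega)).trans (hR2.1 s (by omega) (by omega)).symm
    have hb2 := agree_le hZ2 hZ1 hPP hI
    refine H ⟨l2, hl2, l, hl, l1, hl1, [], _, _, _,
      unconn l2 hl2 Z2 a2 b2 t hZ2 hR2 (hC2 t le_rfl ht), hc,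
      unconn l1 hl1 Z1 a1 b1 0 hZ1 hR1 (hC1 0 le_rfl he), Or.inl rfl, hz, hv, hy, ?_⟩
    have d1 := dist_word Y.P (le_refl t) (show t ≤ Z2.r (t - 1) by have := Z2.lt (t - 1); omega)
    rw [word_nil _ le_rfl] at d1
    have d2 := dist_word Y.P (le_refl t) z3
    have d3 := dist_word Y.P hx (show Y.r (t - 1) ≤ c + Y.w by omega)
    rw [word_per Y.per] at d3
    rw [Finset.insert_comm, Finset.sum_insert (by
      simp [ne l2 Z2 a2 b2 hZ2 hR2, ne l1 Z1 a1 b1 hZ1 hR1]), ← hY.w, dist_nil]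
    omega

/-- If a maximal word is visited by an unconnected layer, a cheap connecting walk exists. -/
theorem progress (hF : Fam F) {l : Layer} (hl : l ∈ F) (hc : ¬ conn l) {s : List ℕ}
    (hs : l.visits s) (hmax : ∀ l' ∈ F, ∀ z, l'.visits z → s <:+: z → z.length ≤ s.length) :
    Step F conn := by
  by_contra H
  refine no_good hF H (l.area.toNat + 1) l hl hc l (Mem.refl l) ?_ (by omega)
  intro l' hl' hc' Z hZ _ a b h1 h2 hag
  by_contra h3
  have hv := hZ.visits h1 h2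
  rw [hag.word] at hv
  have hw := l.w_pos
  have h4 : l.r a + l.w < b := by
    by_contra h4
    exact dstep H hl hc (Mem.refl l) (Or.inr ⟨l', hl', hc', hv⟩) (by omega) (by omega)
  obtain ⟨i, j, s1, s2, rfl⟩ := hs
  have e1 := Int.emod_add_mul_ediv (i - a) l.w
  have e2 := Int.emod_nonneg (i - a) hw.ne'
  have e3 := Int.emod_lt_of_pos (i - a) hw
  set k := (i - a) / l.w with hk
  have e4 : word l.P (i - k * l.w) (j - k * l.w) = word l.P i j :=
    word_ext (by ring) (fun t _ _ => by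
      rw [← per_mul l.per k t]; congr 1; ring)
  have e5 := l.rper_mul k (i - k * l.w)
  rw [sub_add_cancel] at e5
  have e6 := l.mono (show i - k * l.w ≤ a + l.w by linarith)
  have e7 := l.rper a
  have e8 : a ≤ i - k * l.w := by linarith
  have e9 := l.lt (i - 1)
  have := hmax l' hl' _ hv (by rw [← e4]; exact word_infix _ e8 (by omega))
  simp only [length_word] at this
  omega

end

end Vale.Agent.P333
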