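import Vale.Agent.P333.Fam

/-! The table of multiplicities computed by the algorithm, and the lower bound it gives. -/

namespace Vale.Agent.P333

open Vale.Agent.Lib.PolyTime Finset

/-- The distinct nonempty factors of the input strings. -/
def subs (S : List (List ℕ)) : List (List ℕ) :=
  (S.flatMap (fun s => (idx s).flatMap (fun i => (idx s).map (fun k => (s.drop i).take (k + 1))))).dedup

/-- Table lookup. -/
def lk (tb : List (List ℕ × ℕ)) (v : List ℕ) : ℕ :=
  ((tb.filter (fun e => decide (e.1 = v))).map (fun e => e.2)).sum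

/-- Number of closed placements. -/
def nclB (v : List ℕ) (w n : ℕ) (z : List ℕ) : ℕ :=
  ((idx z).filter (fun p => decide (1 ≤ p ∧ p + n + 1 ≤ z.length) && (idx z).all (fun k =>
    decide (z.getD k 0 = v.getD ((k + p * (w - 1)) % w) 0 ↔ (k ≠ 0 ∧ k + 1 ≠ z.length))))).length

/-- Weighted number of closed occurrences. -/
def clB (Z : List (List ℕ)) (f : List ℕ → ℕ) (v : List ℕ) (w n : ℕ) : ℕ :=
  (Z.map (fun z => f z * nclB v w n z)).sum

/-- The lower-bound rules. -/
def rule (S : List (List ℕ)) (f : List ℕ → ℕ) (u : List ℕ) : ℕ :=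
  lmax ([(((subs S).filter (fun z => decide (z.tail = u))).map f).sum,
    (((subs S).filter (fun z => decide (z.dropLast = u))).map f).sum, if u ∈ S then 1 else 0] ++
    ((subs S).filter (fun v => decide (u.length < v.length ∧ u <+: v ∧ u <:+ v ∧
      clB (subs S) f v (v.length - u.length) v.length < f v))).map (fun v =>
        f v - clB (subs S) f v (v.length - u.length) v.length +
          clB (subs S) f v (v.length - u.length) u.length + 1))

/-- One level of the table. -/
def stepT (S : List (List ℕ)) (n : ℕ) (tb : List (List ℕ × ℕ)) : List (List ℕ × ℕ) :=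
  tb ++ ((subs S).filter (fun u => decide (u.length = n))).map
    (fun u => (u, min (rule S (lk tb) u) S.flatten.length))

/-- The table of multiplicities. -/
def table (S : List (List ℕ)) : List (List ℕ × ℕ) := (idx (0 :: S.flatten)).foldr (stepT S) []

theorem mem_subs {S : List (List ℕ)} {v : List ℕ} : v ∈ subs S ↔ v ≠ [] ∧ ∃ s ∈ S, v <:+: s := by
  simp only [subs, idx, List.mem_dedup, List.mem_flatMap, List.mem_map, List.mem_range]
  constructor
  · rintro ⟨s, hs, i, hi, k, -, rfl⟩
    refine ⟨List.length_pos_iff.1 (by simp; omega), s, hs,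
      (List.take_prefix _ _).isInfix.trans (List.drop_suffix _ _).isInfix⟩
  · rintro ⟨hv, s, hs, a, b, rfl⟩
    have := List.length_pos_iff.2 hv
    refine ⟨_, hs, a.length, by simp; omega, v.length - 1, by simp; omega, ?_⟩
    rw [List.append_assoc, List.drop_left, show v.length - 1 + 1 = v.length by omega, List.take_left]

theorem nodup_subs (S : List (List ℕ)) : (subs S).Nodup := List.nodup_dedup _

theorem sum_filter_eq {Z : List (List ℕ)} (hZ : Z.Nodup) (p : List ℕ → Prop) [DecidablePred p]
    (f : List ℕ → ℕ) :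
    ((Z.filter (fun z => decide (p z))).map f).sum = ∑ z ∈ Z.toFinset.filter p, f z := by
  rw [← List.sum_toFinset f (hZ.filter _), List.toFinset_filter]
  simp

/-- Periodic extension of the first `w` letters. -/
def perExt (v : List ℕ) (w : ℕ) : ℤ → ℕ := fun t => v.getD (t % w).toNat 0

theorem perExt_per (v : List ℕ) (w : ℕ) (t : ℤ) : perExt v w (t + w) = perExt v w t := by
  simp [perExt]

theorem nclB_eq (v : List ℕ) {w : ℕ} (hw : 0 < w) (n : ℕ) (z : List ℕ) :
    nclB v w n z = ncl (perExt v w) n z := by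
  classical
  have e : ∀ k p : ℕ, v.getD ((k + p * (w - 1)) % w) 0 = perExt v w ((k : ℤ) - p) := by
    intro k p
    unfold perExt
    congr 1
    have : ((k + p * (w - 1) : ℕ) : ℤ) = (k : ℤ) - p + w * p := by
      rw [Nat.cast_add, Nat.cast_mul, Nat.cast_sub hw]; push_cast; ring
    rw [← Int.add_mul_emod_self_left ((k : ℤ) - p) w p, ← this, ← Int.natCast_mod,
      Int.toNat_natCast]
  unfold nclB ncl idx
  rw [← List.toFinset_card_of_nodup (List.nodup_range.filter _), List.toFinset_filter]
  congr 1
  ext p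
  simp only [e, CO, mem_filter, List.mem_toFinset, List.mem_range, mem_range,
    Bool.and_eq_true, decide_eq_true_eq, List.all_eq_true, and_assoc]

theorem clB_eq {Z : List (List ℕ)} (hZ : Z.Nodup) (f : List ℕ → ℕ) (v : List ℕ) {w : ℕ}
    (hw : 0 < w) (n : ℕ) : clB Z f v w n = Cl Z.toFinset f (perExt v w) n := by
  unfold clB Cl
  rw [List.sum_toFinset _ hZ]
  simp only [nclB_eq v hw]

theorem rule_le {S : List (List ℕ)} {f : List ℕ → ℕ} {u : List ℕ} {b : ℕ} :
    rule S f u ≤ b ↔ ∑ z ∈ (subs S).toFinset.filter (fun z => z.tail = u), f z ≤ b ∧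
      ∑ z ∈ (subs S).toFinset.filter (fun z => z.dropLast = u), f z ≤ b ∧ (u ∈ S → 1 ≤ b) ∧
      ∀ v ∈ subs S, u.length < v.length → u <+: v → u <:+ v →
        Cl (subs S).toFinset f (perExt v (v.length - u.length)) v.length < f v →
        f v - Cl (subs S).toFinset f (perExt v (v.length - u.length)) v.length +
          Cl (subs S).toFinset f (perExt v (v.length - u.length)) u.length + 1 ≤ b := by
  unfold rule
  rw [lmax_le, sum_filter_eq (nodup_subs S), sum_filter_eq (nodup_subs S)]
  simp only [List.mem_append, List.mem_cons, List.not_mem_nil, or_false, List.mem_map,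
    List.mem_filter, decide_eq_true_eq, or_imp, forall_and, forall_eq, and_assoc]
  refine and_congr Iff.rfl (and_congr Iff.rfl (and_congr (by split_ifs with h <;> simp [h]) ?_))
  constructor
  · intro h v h1 h2 h3 h4 h5
    rw [← clB_eq (nodup_subs S) _ _ (by omega)] at h5
    rw [← clB_eq (nodup_subs S) _ _ (by omega), ← clB_eq (nodup_subs S) _ _ (by omega)]
    exact h _ ⟨v, h1, h2, h3, h4, h5, rfl⟩
  · rintro h _ ⟨v, h1, h2, h3, h4, h5, rfl⟩
    rw [clB_eq (nodup_subs S) _ _ (by omega)] at h5
    rw [clB_eq (nodup_subs S) _ _ (by omega), clB_eq (nodup_subs S) _ _ (by omega)]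
    exact h v h1 h2 h3 h4 h5

theorem Cl_congr {Z : Finset (List ℕ)} {f g : List ℕ → ℕ} {P : ℤ → ℕ} {n : ℕ}
    (h : ∀ z, n < z.length → f z = g z) : Cl Z f P n = Cl Z g P n := by
  refine Finset.sum_congr rfl (fun z _ => ?_)
  by_cases h1 : n < z.length
  · rw [h z h1]
  · rw [ncl_zero (by omega)]; simp

theorem length_of_tail {S : List (List ℕ)} {z u : List ℕ}
    (hz : z ∈ (subs S).toFinset.filter (fun z => z.tail = u)) : u.length < z.length := by
  obtain ⟨h1, rfl⟩ := mem_filter.1 hz
  have := List.length_pos_iff.2 (mem_subs.1 (List.mem_toFinset.1 h1)).1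
  simp; omega

theorem length_of_dropLast {S : List (List ℕ)} {z u : List ℕ}
    (hz : z ∈ (subs S).toFinset.filter (fun z => z.dropLast = u)) : u.length < z.length := by
  obtain ⟨h1, rfl⟩ := mem_filter.1 hz
  have := List.length_pos_iff.2 (mem_subs.1 (List.mem_toFinset.1 h1)).1
  simp; omega

theorem rule_congr {S : List (List ℕ)} {f g : List ℕ → ℕ} {u : List ℕ}
    (h : ∀ z, u.length < z.length → f z = g z) : rule S f u = rule S g u := by
  refine eq_of_forall_ge_iff (fun b => ?_)
  rw [rule_le, rule_le, Finset.sum_congr rfl (fun z hz => h z (length_of_tail hz)),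
    Finset.sum_congr rfl (fun z hz => h z (length_of_dropLast hz))]
  refine and_congr Iff.rfl (and_congr Iff.rfl (and_congr Iff.rfl ?_))
  refine forall_congr' fun v => forall_congr' fun _ => forall_congr' fun hv => ?_
  rw [h v hv, Cl_congr (n := v.length) (fun z hz => h z (by omega)), Cl_congr h]

theorem lk_map {L : List (List ℕ)} (hL : L.Nodup) (g : List ℕ → ℕ) (v : List ℕ) :
    lk (L.map (fun u => (u, g u))) v = if v ∈ L then g v else 0 := by
  unfold lk
  rw [List.filter_map, List.map_map]
  have := sum_filter_eq hL (fun u => u = v) g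
  rw [Finset.filter_eq'] at this
  refine Eq.trans this ?_
  by_cases h : v ∈ L <;> simp [h]

theorem lk_stepT (S : List (List ℕ)) (n : ℕ) (tb : List (List ℕ × ℕ)) (v : List ℕ) :
    lk (stepT S n tb) v = lk tb v +
      if v ∈ subs S ∧ v.length = n then min (rule S (lk tb) v) S.flatten.length else 0 := by
  have := lk_map ((nodup_subs S).filter (fun u => decide (u.length = n)))
    (fun u => min (rule S (lk tb) u) S.flatten.length) v
  simp only [List.mem_filter, decide_eq_true_eq] at this
  rw [← this]
  simp [stepT, lk]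

/-- The multiplicity function. -/
def mm (S : List (List ℕ)) : List ℕ → ℕ := lk (table S)

theorem mm_spec (S : List (List ℕ)) : (∀ v, v ∉ subs S → mm S v = 0) ∧
    ∀ v ∈ subs S, mm S v = min (rule S (mm S) v) S.flatten.length := by
  have key : ∀ k j, (∀ v ∈ subs S, v.length < j + k) →
      (∀ v, v.length < j ∨ v ∉ subs S → lk ((List.range' j k).foldr (stepT S) []) v = 0) ∧
      ∀ v ∈ subs S, j ≤ v.length → lk ((List.range' j k).foldr (stepT S) []) v =
        min (rule S (lk ((List.range' j k).foldr (stepT S) [])) v) S.flatten.length := by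
    intro k
    induction k with
    | zero => exact fun j h => ⟨fun v _ => rfl, fun v hv hj => by have := h v hv; omega⟩
    | succ k ih =>
      intro j h
      obtain ⟨h1, h2⟩ := ih (j + 1) (fun v hv => by have := h v hv; omega)
      rw [List.range'_succ, List.foldr_cons]
      generalize (List.range' (j + 1) k).foldr (stepT S) [] = tb at h1 h2
      refine ⟨fun v hv => ?_, fun v hv hj => ?_⟩
      · rw [lk_stepT, h1 v (by rcases hv with hv | hv; exacts [Or.inl (by omega), Or.inr hv]),
          if_neg (by rintro ⟨a, b⟩; rcases hv with hv | hv; exacts [by omega, hv a])]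
      · rw [rule_congr (g := lk tb) (fun z hz => by rw [lk_stepT, if_neg (by omega), add_zero]),
          lk_stepT]
        by_cases h3 : v.length = j
        · rw [h1 v (Or.inl (by omega)), if_pos ⟨hv, h3⟩, zero_add]
        · rw [if_neg (by omega), add_zero, h2 v hv (by omega)]
  have h := key (S.flatten.length + 1) 0 (fun v hv => by
    obtain ⟨-, s, hs, h⟩ := mem_subs.1 hv
    have := (h.trans (List.infix_of_mem_flatten hs)).length_le
    omega)
  rw [← List.range_eq_range'] at h
  exact ⟨fun v hv => h.1 v (Or.inr hv), fun v hv => h.2 v hv (Nat.zero_le _)⟩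

theorem mm_le (S : List (List ℕ)) (v : List ℕ) : mm S v ≤ S.flatten.length := by
  by_cases h : v ∈ subs S
  · rw [(mm_spec S).2 v h]; exact min_le_right _ _
  · rw [(mm_spec S).1 v h]; exact Nat.zero_le _

theorem word_perExt {u v : List ℕ} (h1 : u.length < v.length) (h2 : u <+: v) (h3 : u <:+ v) :
    word (perExt v (v.length - u.length)) 0 v.length = v := by
  set w := v.length - u.length with hw
  have key : ∀ k, k < v.length → v.getD (k % w) 0 = v.getD k 0 := by
    intro k
    induction k using Nat.strong_induction_on with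
    | _ k ih =>
      intro hk
      by_cases h : k < w
      · rw [Nat.mod_eq_of_lt h]
      · rw [Nat.mod_eq_sub_mod (by omega), ih (k - w) (by omega) (by omega)]
        have e1 := List.prefix_iff_eq_take.1 h2
        have e2 := List.suffix_iff_eq_drop.1 h3
        have e3 : u.getD (k - w) 0 = v.getD (k - w) 0 := by
          rw [e1]; simp only [List.getD_eq_getElem?_getD]; rw [List.getElem?_take_of_lt (by omega)]
        have e4 : u.getD (k - w) 0 = v.getD k 0 := by
          rw [e2]; simp only [List.getD_eq_getElem?_getD]; rw [List.getElem?_drop]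
          congr 2; omega
        rw [← e3, e4]
  refine List.ext_getElem (by simp) (fun k hk hk' => ?_)
  rw [getElem_word, perExt, zero_add, ← Int.natCast_mod, Int.toNat_natCast, key k hk',
    List.getD_eq_getElem _ _ hk']

theorem perExt_word {P : ℤ → ℕ} {w n : ℕ} (hw : 0 < w) (hn : w ≤ n) (hP : ∀ t, P (t + w) = P t) :
    perExt (word P 0 n) w = P := by
  refine eq_of_agree_per (w := w) (a := 0) (b := w) (by omega) hP (perExt_per _ _)
    (fun t t1 t2 => ?_) (by omega)
  rw [perExt, Int.emod_eq_of_lt t1 t2, getD_word _ _ _ _ (by omega)]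
  congr 1; omega

theorem exists_line {T : List ℕ} (hT : T ≠ []) : ∃ Y : Layer, Y.w = T.length ∧
    (∀ t, 0 ≤ t → t < Y.w → Y.r t ≤ Y.w) ∧ Supp (subs [T]).toFinset Y ∧
    ∀ s, s <:+: T → s ≠ [] → 0 < mu Y s := by
  have hl := List.length_pos_iff.2 hT
  obtain ⟨Y, h1, h2, h3⟩ := exists_layer (w := T.length) (by omega) (perExt_per T T.length)
    (fun _ => T.length) (fun t _ h => h) (fun _ _ _ => le_rfl) (by omega)
  have hw : word Y.P 0 T.length = T := by
    have := word_perExt (u := []) (v := T) hl List.nil_prefix List.nil_suffix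
    rwa [h2]
  refine ⟨Y, h1, fun t t1 t2 => by rw [h3 t t1 (by omega), h1], ?_, ?_⟩
  · rintro X ⟨d, rfl⟩ a b hab hb
    rw [Y.word_sh, List.mem_toFinset, mem_subs]
    refine ⟨List.length_pos_iff.1 (by simp; omega), T, by simp, ?_⟩
    simp only [Layer.sh] at hb
    have e1 := Int.emod_add_mul_ediv (a + d) Y.w
    have e2 := Int.emod_nonneg (a + d) Y.w_pos.ne'
    have e3 := Int.emod_lt_of_pos (a + d) Y.w_pos
    have e4 := Y.rper_mul ((a + d) / Y.w) ((a + d) % Y.w)
    rw [h3 _ e2 (by omega), show (a + d) % Y.w + (a + d) / Y.w * Y.w = a + d by linarith] at e4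
    have e5 : word Y.P (a + d) (b + d) =
        word Y.P ((a + d) % Y.w) (b + d - (a + d) / Y.w * Y.w) :=
      word_ext (by linarith) (fun t _ _ => by
        rw [← per_mul Y.per ((a + d) / Y.w) (t - (a + d) + (a + d) % Y.w)]; congr 1; linarith)
    rw [e5]
    exact hw ▸ word_infix Y.P e2 (by omega)
  · rintro s ⟨a, b, hab⟩ hs
    have hs' := List.length_pos_iff.2 hs
    have e1 : T.length = a.length + s.length + b.length := by rw [← hab]; simp; omega
    have e2 : word Y.P a.length (a.length + s.length) = s := by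
      rw [← take_word Y.P (b := T.length) (by omega), ← drop_word Y.P (a := 0) (by omega), hw,
        ← hab]
      simp
    rw [← e2]
    exact mu_pos (Mem.refl Y) (by omega) (by rw [h3 _ (by omega) (by omega)]; omega)

theorem mu_le_w (Y : Layer) (v : List ℕ) : (mu Y v : ℤ) ≤ Y.w := by
  rw [← psum_one]
  exact Int.ofNat_le.2 (psum_le (fun X _ => by split_ifs <;> omega))

theorem rule_lb {S : List (List ℕ)} {T : List ℕ} (hT : ∀ s ∈ S, s <:+: T) {Y : Layer}
    (h2 : ∀ t, 0 ≤ t → t < Y.w → Y.r t ≤ Y.w) (h3 : Supp (subs [T]).toFinset Y)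
    (h4 : ∀ s, s <:+: T → s ≠ [] → 0 < mu Y s) {f : List ℕ → ℕ} {u : List ℕ} (hu : u ≠ [])
    (hf : ∀ z, u.length < z.length → f z ≤ mu Y z) : rule S f u ≤ mu Y u := by
  have hZ : (subs S).toFinset ⊆ (subs [T]).toFinset := by
    intro z hz
    obtain ⟨z1, s, hs, z2⟩ := mem_subs.1 (List.mem_toFinset.1 hz)
    exact List.mem_toFinset.2 (mem_subs.2 ⟨z1, T, by simp, z2.trans (hT s hs)⟩)
  refine rule_le.2 ⟨?_, ?_, fun h => h4 u (hT u h) hu, fun v _ v1 v2 v3 v4 => ?_⟩
  · rw [mu_left h3 hu]
    exact ((Finset.sum_le_sum (fun z hz => hf z (length_of_tail hz))).trans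
      (Finset.sum_le_sum_of_subset (Finset.filter_subset_filter _ hZ))).trans (Nat.le_add_right _ _)
  · rw [mu_right h3 hu]
    exact ((Finset.sum_le_sum (fun z hz => hf z (length_of_dropLast hz))).trans
      (Finset.sum_le_sum_of_subset (Finset.filter_subset_filter _ hZ))).trans (Nat.le_add_right _ _)
  · have e1 := word_perExt v1 v2 v3
    have e2 : v.length - (v.length - u.length) = u.length := by omega
    have hu' := List.length_pos_iff.2 hu
    have e3 : word (perExt v (v.length - u.length)) 0 u.length = u := by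
      rw [← take_word _ (b := v.length) (by omega), e1]
      simpa using (List.prefix_iff_eq_take.1 v2).symm
    have := r2_lb h2 h3 hZ (f := f) (w := v.length - u.length) (n := v.length) (by omega)
      (by omega) (perExt_per v _) (by rwa [e2]) (by rwa [e1])
    rwa [e1, e2, e3] at this

theorem mm_lb {S : List (List ℕ)} {T : List ℕ} (hT : ∀ s ∈ S, s <:+: T) {Y : Layer}
    (h2 : ∀ t, 0 ≤ t → t < Y.w → Y.r t ≤ Y.w) (h3 : Supp (subs [T]).toFinset Y)
    (h4 : ∀ s, s <:+: T → s ≠ [] → 0 < mu Y s) (u : List ℕ) : mm S u ≤ mu Y u := by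
  have key : ∀ k, ∀ u : List ℕ, T.length < u.length + k → mm S u ≤ mu Y u := by
    intro k
    induction k with
    | zero =>
      intro u hu
      rw [(mm_spec S).1 u (fun h => ?_)]; · exact Nat.zero_le _
      obtain ⟨-, s, hs, h⟩ := mem_subs.1 h
      have := (h.trans (hT s hs)).length_le
      omega
    | succ k ih =>
      intro u hu
      by_cases h : u ∈ subs S
      · rw [(mm_spec S).2 u h]
        exact (min_le_left _ _).trans
          (rule_lb hT h2 h3 h4 (mem_subs.1 h).1 (fun z hz => ih z (by omega)))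
      · rw [(mm_spec S).1 u h]; exact Nat.zero_le _
  exact key (T.length + 1) u (by omega)

theorem mm_rule {S : List (List ℕ)} {v : List ℕ} (hv : v ∈ subs S) : rule S (mm S) v ≤ mm S v := by
  have hT : ∀ s ∈ S, s <:+: S.flatten := fun s hs => List.infix_of_mem_flatten hs
  obtain ⟨v1, s, hs, v2⟩ := mem_subs.1 hv
  obtain ⟨Y, h1, h2, h3, h4⟩ := exists_line (T := S.flatten) (fun h => v1 (by
    have := v2.trans (hT s hs)
    rwa [h, List.infix_nil] at this))
  have a1 := rule_lb hT h2 h3 h4 v1 (fun z _ => mm_lb hT h2 h3 h4 z)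
  have a2 := mu_le_w Y v
  rw [(mm_spec S).2 v hv]
  omega

theorem mm_pos {S : List (List ℕ)} {s : List ℕ} (hs : s ∈ S) (hne : s ≠ []) : 0 < mm S s :=
  (rule_le.1 (mm_rule (mem_subs.2 ⟨hne, s, hs, List.infix_refl s⟩))).2.2.1 hs

theorem mdata (S : List (List ℕ)) : MData (subs S).toFinset (mm S) where
  ne h := (mem_subs.1 (List.mem_toFinset.1 h)).1 rfl
  closed z hz y hy h := by
    obtain ⟨-, s, hs, h1⟩ := mem_subs.1 (List.mem_toFinset.1 hz)
    exact List.mem_toFinset.2 (mem_subs.2 ⟨hy, s, hs, h.trans h1⟩)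
  supp v hv := (mm_spec S).1 v (fun h => hv (List.mem_toFinset.2 h))
  left v hv := (rule_le.1 (mm_rule (List.mem_toFinset.1 hv))).1
  right v hv := (rule_le.1 (mm_rule (List.mem_toFinset.1 hv))).2.1
  r2 P w n hw hn hP h := by
    have hv : word P 0 n ∈ subs S := by
      by_contra h1
      rw [(mm_spec S).1 _ h1] at h; omega
    obtain ⟨-, s, hs, h1⟩ := mem_subs.1 hv
    have p1 : word P 0 ((n - w : ℕ) : ℤ) <+: word P 0 n := word_prefix P (by omega)
    have p2 : word P 0 ((n - w : ℕ) : ℤ) <:+ word P 0 n := by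
      rw [← word_per hP, show ((n - w : ℕ) : ℤ) + w = n by omega]
      exact word_suffix P (by omega)
    have hu : word P 0 ((n - w : ℕ) : ℤ) ∈ subs S :=
      mem_subs.2 ⟨List.length_pos_iff.1 (by simp; omega), s, hs, p1.isInfix.trans h1⟩
    have := (rule_le.1 (mm_rule hu)).2.2.2 _ hv (by simp; omega) p1 p2
    simp only [length_word, sub_zero, Int.toNat_natCast] at this
    rw [show n - (n - w) = w by omega, perExt_word hw hn.le hP] at this
    exact this h

theorem sum_down_le {S : List (List ℕ)} {T : List ℕ} (hT : ∀ s ∈ S, s <:+: T) :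
    ∑ v ∈ (subs S).toFinset, down (subs S).toFinset (mm S) v ≤ T.length := by
  classical
  by_cases h0 : T = []
  · rw [Finset.sum_eq_zero (fun v hv => ?_)]; · exact Nat.zero_le _
    obtain ⟨v1, s, hs, v2⟩ := mem_subs.1 (List.mem_toFinset.1 hv)
    have := v2.trans (hT s hs)
    rw [h0, List.infix_nil] at this
    exact absurd this v1
  obtain ⟨Y, h1, h2, h3, h4⟩ := exists_line h0
  have hm := mdata S
  generalize (subs S).toFinset = Z at hm
  have e1 : ∑ v ∈ Z, down Z (mm S) v + ∑ z ∈ Z.filter (fun z => z.dropLast ∈ Z), mm S z =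
      ∑ v ∈ Z, mm S v := by
    rw [← Finset.sum_fiberwise_eq_sum_filter, ← Finset.sum_add_distrib]
    refine Finset.sum_congr rfl (fun v hv => ?_)
    have := hm.right v hv
    unfold down; omega
  have e2 := Finset.sum_filter_add_sum_filter_not Z (fun z => z.dropLast ∈ Z) (mm S)
  have e3 : ∑ z ∈ Z.filter (fun z => ¬ z.dropLast ∈ Z), mm S z ≤
      ∑ z ∈ Z.filter (fun z => ¬ z.dropLast ∈ Z), mu Y z :=
    Finset.sum_le_sum (fun z _ => mm_lb hT h2 h3 h4 z)
  have e4 : ∑ z ∈ Z.filter (fun z => ¬ z.dropLast ∈ Z), mu Y z ≤ psum Y (fun _ => 1) := by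
    unfold mu
    rw [← psum_sum]
    refine psum_le (fun X _ => ?_)
    have hl : ∀ z ∈ Z.filter (fun z => ¬ z.dropLast ∈ Z), z.length = 1 := by
      intro z hz
      obtain ⟨z1, z2⟩ := mem_filter.1 hz
      have a1 : z ≠ [] := by rintro rfl; exact hm.ne z1
      have a2 := List.length_pos_iff.2 a1
      by_contra h
      exact z2 (hm.closed z z1 _ (List.length_pos_iff.1 (by simp; omega))
        (List.dropLast_prefix z).isInfix)
    rw [sum_ind _ _ (∃ z ∈ Z.filter (fun z => ¬ z.dropLast ∈ Z),
      word X.P 0 z.length = z ∧ (z.length : ℤ) ≤ X.r 0) id (fun x hx h => ⟨x, hx, h⟩)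
      (fun x hx y hy a b => by rw [← a.1, ← b.1, hl x hx, hl y hy])]
    split_ifs <;> omega
  have e5 := psum_one Y
  omega

end Vale.Agent.P333
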