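import Vale.Agent.Lib.PolyTime.More

/-! Finite windows of bi-infinite words, overlaps and the prefix distance. -/

namespace Vale.Agent.P333

open Vale.Agent.Lib.PolyTime

/-- The longest prefix of `b` that is a suffix of `a`. -/
def ov (a b : List ℕ) : ℕ :=
  lmax ((idx (0 :: b)).filter (fun k => decide (b.take k <:+ a)))

/-- The number of letters needed to reach `b` after `a`. -/
def dist (a b : List ℕ) : ℕ := b.length - ov a b

theorem le_ov {a b : List ℕ} {k : ℕ} (hk : k ≤ b.length) (h : b.take k <:+ a) : k ≤ ov a b :=
  le_lmax (by simp [idx, h]; omega)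

theorem ov_spec (a b : List ℕ) : ov a b ≤ b.length ∧ b.take (ov a b) <:+ a := by
  have key : ∀ (l : List ℕ) (x : ℕ), l.foldl max x = x ∨ l.foldl max x ∈ l := by
    intro l
    induction l with
    | nil => simp
    | cons y l ih =>
      intro x
      rcases ih (max x y) with h | h
      · rw [List.foldl_cons, h]
        rcases max_choice x y with h1 | h1 <;> simp [h1]
      · exact Or.inr (List.mem_cons_of_mem _ h)
  rcases key ((idx (0 :: b)).filter (fun k => decide (b.take k <:+ a))) 0 with h | h
  · have : ov a b = 0 := h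
    simp [this]
  · have h1 : ov a b ∈ (idx (0 :: b)).filter (fun k => decide (b.take k <:+ a)) := h
    simp only [idx, List.mem_filter, List.mem_range, List.length_cons, decide_eq_true_eq] at h1
    exact ⟨by omega, h1.2⟩

theorem dist_le {a b : List ℕ} {k : ℕ} (hk : k ≤ b.length) (h : b.take k <:+ a) :
    dist a b ≤ b.length - k := by
  have := le_ov hk h
  unfold dist; omega

theorem dist_self (a : List ℕ) : dist a a = 0 := by
  have := dist_le (a := a) (b := a) le_rfl (by simp)
  omega

theorem dist_nil (a : List ℕ) : dist a [] = 0 := by simp [dist]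

theorem dist_le_length (a b : List ℕ) : dist a b ≤ b.length := by unfold dist; omega

theorem dist_mono {a s : List ℕ} (b : List ℕ) (h : a <:+ s) : dist s b ≤ dist a b :=
  dist_le (ov_spec a b).1 ((ov_spec a b).2.trans h)

theorem dist_tail (v : List ℕ) : dist v v.tail = 0 := by
  have := dist_le (a := v) (b := v.tail) le_rfl (by rw [List.take_length]; exact List.tail_suffix v)
  omega

theorem dist_dropLast (v : List ℕ) : dist v.dropLast v ≤ 1 := by
  have := dist_le (a := v.dropLast) (b := v) (k := v.length - 1) (by omega)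
    (by rw [List.dropLast_eq_take])
  omega

/-- The window `[a, b)` of a bi-infinite word. -/
def word (P : ℤ → ℕ) (a b : ℤ) : List ℕ := (List.range (b - a).toNat).map (fun k : ℕ => P (a + k))

@[simp] theorem length_word (P : ℤ → ℕ) (a b : ℤ) : (word P a b).length = (b - a).toNat := by
  simp [word]

@[simp] theorem getElem_word (P : ℤ → ℕ) (a b : ℤ) (k : ℕ) (h : k < (word P a b).length) :
    (word P a b)[k] = P (a + k) := by simp [word]

theorem getD_word (P : ℤ → ℕ) (a b : ℤ) (k : ℕ) (h : (k : ℤ) < b - a) :
    (word P a b).getD k 0 = P (a + k) := by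
  rw [List.getD_eq_getElem _ _ (by simp; omega), getElem_word]

theorem word_nil (P : ℤ → ℕ) {a b : ℤ} (h : b ≤ a) : word P a b = [] :=
  List.length_eq_zero_iff.1 (by simp; omega)

theorem word_ext {P Q : ℤ → ℕ} {a b a' b' : ℤ} (h1 : b - a = b' - a')
    (h2 : ∀ t, a ≤ t → t < b → P t = Q (t - a + a')) : word P a b = word Q a' b' := by
  refine List.ext_getElem (by simp [h1]) (fun k h _ => ?_)
  simp only [length_word] at h
  rw [getElem_word, getElem_word, h2 _ (by omega) (by omega)]
  congr 1; ring

/-- Two words agree on `[a, b)`. -/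
def Agree (Q P : ℤ → ℕ) (a b : ℤ) : Prop := ∀ t, a ≤ t → t < b → Q t = P t

theorem Agree.mono {Q P : ℤ → ℕ} {a b a' b' : ℤ} (h : Agree Q P a b) (ha : a ≤ a')
    (hb : b' ≤ b) : Agree Q P a' b' := fun t h1 h2 => h t (by omega) (by omega)

theorem Agree.word {Q P : ℤ → ℕ} {a b : ℤ} (h : Agree Q P a b) : word Q a b = word P a b :=
  word_ext rfl (fun t h1 h2 => by rw [h t h1 h2]; congr 1; ring)

theorem agree_of_word {Q P : ℤ → ℕ} {a b : ℤ} (h : word Q a b = word P a b) : Agree Q P a b := by
  intro t h1 h2
  have h3 := congrArg (fun l => l.getD (t - a).toNat 0) h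
  rw [getD_word _ _ _ _ (by omega), getD_word _ _ _ _ (by omega)] at h3
  rwa [show a + ((t - a).toNat : ℤ) = t by omega] at h3

theorem take_word (P : ℤ → ℕ) {a b c : ℤ} (h2 : c ≤ b) :
    (word P a b).take (c - a).toNat = word P a c :=
  List.ext_getElem (by simp; omega) (fun k _ _ => by simp)

theorem drop_word (P : ℤ → ℕ) {a b c : ℤ} (h1 : a ≤ c) :
    (word P a b).drop (c - a).toNat = word P c b :=
  List.ext_getElem (by simp; omega) (fun k _ _ => by
    simp only [List.getElem_drop, getElem_word]; congr 1; push_cast; omega)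

theorem word_prefix (P : ℤ → ℕ) {a b c : ℤ} (h2 : c ≤ b) : word P a c <+: word P a b := by
  rw [← take_word P h2]; exact List.take_prefix _ _

theorem word_suffix (P : ℤ → ℕ) {a b c : ℤ} (h1 : a ≤ c) : word P c b <:+ word P a b := by
  rw [← drop_word P h1]; exact List.drop_suffix _ _

theorem word_infix (P : ℤ → ℕ) {a b a' b' : ℤ} (h1 : a ≤ a') (h2 : b' ≤ b) :
    word P a' b' <:+: word P a b :=
  (word_prefix P h2).isInfix.trans (word_suffix P h1).isInfix

theorem tail_word (P : ℤ → ℕ) (a b : ℤ) : (word P a b).tail = word P (a + 1) b := by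
  rw [← drop_word P (show a ≤ a + 1 by omega), show (a + 1 - a).toNat = 1 by omega, List.drop_one]

theorem dropLast_word (P : ℤ → ℕ) (a b : ℤ) : (word P a b).dropLast = word P a (b - 1) :=
  List.ext_getElem (by simp; omega) (fun k _ _ => by simp)

/-- Moving both ends of a window to the right costs the move of the right end. -/
theorem dist_word (P : ℤ → ℕ) {a b a' b' : ℤ} (h1 : a ≤ a') (h2 : b ≤ b') :
    (dist (word P a b) (word P a' b') : ℤ) ≤ b' - b := by
  by_cases h3 : a' ≤ b
  · have := dist_le (a := word P a b) (b := word P a' b') (k := (b - a').toNat) (by simp; omega)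
      (by rw [take_word P h2]; exact word_suffix P h1)
    simp only [length_word] at this
    omega
  · have := dist_le_length (word P a b) (word P a' b')
    simp only [length_word] at this
    omega

theorem per_mul {P : ℤ → ℕ} {w : ℤ} (h : ∀ t, P (t + w) = P t) (k t : ℤ) : P (t + k * w) = P t := by
  have h1 : Function.Periodic P w := h
  exact h1.int_mul k t

theorem word_per {P : ℤ → ℕ} {w : ℤ} (h : ∀ t, P (t + w) = P t) (a b : ℤ) :
    word P (a + w) (b + w) = word P a b :=
  word_ext (by ring) (fun t _ _ => by rw [← h (t - (a + w) + a)]; congr 1; ring)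

/-- Words with a common period that agree on a full period are equal. -/
theorem eq_of_agree_per {P Q : ℤ → ℕ} {w a b : ℤ} (hw : 0 < w) (hP : ∀ t, P (t + w) = P t)
    (hQ : ∀ t, Q (t + w) = Q t) (h : Agree Q P a b) (hl : a + w ≤ b) : Q = P := by
  funext t
  have h1 := Int.emod_add_mul_ediv (t - a) w
  have h2 := Int.emod_nonneg (t - a) hw.ne'
  have h3 := Int.emod_lt_of_pos (t - a) hw
  have e : t = (a + (t - a) % w) + (t - a) / w * w := by linarith
  rw [e, per_mul hP, per_mul hQ]
  exact h _ (by omega) (by omega)

/-- The theorem of Fine and Wilf for bi-infinite periodic words. -/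
theorem fine_wilf (n : ℕ) : ∀ {P Q : ℤ → ℕ} {p q a b : ℤ}, 0 < p → 0 < q → p + q ≤ n →
    (∀ t, P (t + p) = P t) → (∀ t, Q (t + q) = Q t) → Agree Q P a b → a + p + q - 1 ≤ b →
    Q = P := by
  induction n with
  | zero => intro P Q p q a b hp hq hn; omega
  | succ n ih =>
    have main : ∀ {P Q : ℤ → ℕ} {p q a b : ℤ}, 0 < p → p < q → p + q ≤ (n + 1 : ℕ) →
        (∀ t, P (t + p) = P t) → (∀ t, Q (t + q) = Q t) → Agree Q P a b → a + p + q - 1 ≤ b →
        Q = P := by
      intro P Q p q a b hp hpq hn hP hQ h hl
      let Q' : ℤ → ℕ := fun t => P (a + (t - a) % (q - p))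
      have hQ' : ∀ t, Q' (t + (q - p)) = Q' t := by
        intro t
        simp only [Q']
        rw [show t + (q - p) - a = t - a + (q - p) by ring, Int.add_emod_right]
      have step : ∀ t, a + (q - p) ≤ t → t < a + q - 1 → P t = P (t - (q - p)) := by
        intro t h1 h2
        rw [← hP t, ← h (t + p) (by omega) (by omega), ← h (t - (q - p)) (by omega) (by omega),
          ← hQ (t - (q - p))]
        congr 1; ring
      have hag : ∀ k : ℕ, ∀ t, a ≤ t → t < a + q - 1 → t - a ≤ k → Q' t = P t := by
        intro k
        induction k with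
        | zero =>
          intro t h1 _ h3
          simp only [Q']
          rw [show t - a = 0 by omega, Int.zero_emod]; congr 1; omega
        | succ k ihk =>
          intro t h1 h2 h3
          by_cases h4 : a + (q - p) ≤ t
          · rw [step t h4 h2, ← ihk (t - (q - p)) (by omega) (by omega) (by omega),
              ← hQ' (t - (q - p))]
            congr 1; ring
          · simp only [Q']
            rw [Int.emod_eq_of_lt (by omega) (by omega)]; congr 1; ring
      have h5 : Q' = P := ih (p := p) (q := q - p) (a := a) (b := a + q - 1) hp (by omega)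
        (by push_cast at hn; omega) hP hQ'
        (fun t h1 h2 => hag (t - a).toNat t h1 h2 (by omega)) (by omega)
      refine eq_of_agree_per (w := q) (by omega) (fun t => ?_) hQ h (by omega)
      rw [show t + q = t + (q - p) + p by ring, hP, ← h5, hQ']
    intro P Q p q a b hp hq hn hP hQ h hl
    rcases lt_trichotomy p q with h1 | h1 | h1
    · exact main hp h1 hn hP hQ h hl
    · subst h1; exact eq_of_agree_per hp hP hQ h (by omega)
    · exact (main hq h1 (by omega) hQ hP (fun t h1 h2 => (h t h1 h2).symm) (by omega)).symm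

end Vale.Agent.P333
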